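import Vale.Agent.P240.R2.H165.ChevDefs

/-!
The twisted groups `³D₄(q)` and `²E₆(q)`, given by root elements and relations (definitions).
-/

set_option autoImplicit false

namespace Vale.Agent.P240.R2.H945

open Subgroup CartanMatrix
open Vale.Agent.P240.R2.H165 (nn)

section
variable {ι M F L : Type*} [AddCommGroup M] [Field F] [Group L]

/-- the subgroup generated by the elements `x_i(t)` with `p i` and `t ∈ K i` -/
def grK (K : ι → Subfield F) (x : ι → F → L) (p : ι → Prop) : Subgroup L :=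
  closure {g | ∃ i t, p i ∧ t ∈ K i ∧ g = x i t}

/-- Twisted form of Chevalley's relations (`Chev`): the elements `x_i(t)`, for roots `i` and `t` in a
subfield `K i` of `F`, generate `L`. -/
structure TwChev (root : ι → M) (ht : ι → ℤ) (s : ι → ι → ι) (K : ι → Subfield F)
    (x : ι → F → L) : Prop where
  /-- roots of the same length have the same field -/
  field : ∀ i j, K (s i j) = K j
  add : ∀ i t u, t ∈ K i → u ∈ K i → x i (t + u) = x i t * x i u
  inj : ∀ i t, t ∈ K i → x i t = 1 → t = 0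
  /-- the commutator `[x_i(t), x_j(u)]` is a product of elements `x_k(v)`, `k = m i + n j` -/
  comm : ∀ i j, i ≠ j → i ≠ s j j → ∀ t u, t ∈ K i → u ∈ K j →
    x i t * x j u * (x i t)⁻¹ * (x j u)⁻¹ ∈
    grK K x fun k => ∃ m n : ℕ, 0 < m ∧ 0 < n ∧ root k = m • root i + n • root j
  /-- `n_i(t) x_j(u) n_i(t)⁻¹ = x_k(c τ(u))` and `n_i(t) x_{-j}(u) n_i(t)⁻¹ = x_{-k}(c⁻¹ τ(u))`,
  `k = s_i(j)`, where the automorphism `τ` of `F` depends only on `i` and `j`, and `c` also on `t` -/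
  refl : ∀ i j, ∃ τ : F ≃+* F, (∀ u, τ u ∈ K j ↔ u ∈ K j) ∧ ∀ t, t ∈ K i → t ≠ 0 →
    ∃ c, c ∈ K j ∧ c ≠ 0 ∧ ∀ u, u ∈ K j →
    nn s x i t * x j u * (nn s x i t)⁻¹ = x (s i j) (c * τ u) ∧
    nn s x i t * x (s j j) u * (nn s x i t)⁻¹ = x (s (s i j) (s i j)) (c⁻¹ * τ u)
  /-- `n_i(t) x_{-i}(u) n_i(t)⁻¹ = x_i(c t² u)`, where `c = 1` or `c = -1` -/
  self : ∀ i, ∃ c : F, c * c = 1 ∧ ∀ t u : F, t ∈ K i → u ∈ K i → t ≠ 0 →
    nn s x i t * x (s i i) u * (nn s x i t)⁻¹ = x i (c * (t * t) * u)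
  gen : grK K x (fun _ => True) = ⊤
  opp : grK K x (fun i => 0 < ht i) ⊓ grK K x (fun i => ht i < 0) = ⊥

end

/-- `h_i(t) = n_i(t) n_i(1)⁻¹` -/
def hn {ι F L : Type*} [Field F] [Group L] (s : ι → ι → ι) (x : ι → F → L) (i : ι) (t : F) : L :=
  nn s x i t * (nn s x i 1)⁻¹

/-- `L` is generated by elements `x_i(t)` that satisfy the twisted relations for the roots of a root
system with base `e 0, …, e (n - 1)` and Cartan matrix `A`, where `t` lies in a subfield `K₀` with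
`|F| = |K₀| ^ m` if the root is long, and in `F` if it is short (`⟨j, i^∨⟩ = -m` for long simple
roots `j` and short simple roots `i` that are not orthogonal); for simple roots `i ≠ j`, the element
`h_i(t)` maps `x_j(u)` to `x_j(t ^ ⟨j, i^∨⟩ u)`, but to `x_j(N(t)⁻¹ u)` if `⟨j, i^∨⟩ = -m`, where
`N(t) = t ^ ((|F| - 1) / (|K₀| - 1))` is the norm. -/
def IsTw {n : ℕ} (A : Matrix (Fin n) (Fin n) ℤ) (m : ℕ) (F : Type) [Field F] (L : Type*)
    [Group L] : Prop :=
  ∃ (ι : Type) (_ : Finite ι) (P : RootPairing ι ℚ (Fin n → ℚ) (Fin n → ℚ))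
    (_ : P.IsCrystallographic) (_ : P.IsReduced) (b : P.Base) (e : Fin n ↪ ι) (K₀ : Subfield F)
    (K : ι → Subfield F) (x : ι → F → L),
    b.support = Finset.univ.map e ∧ (∀ i j, P.pairingIn ℤ (e i) (e j) = A i j) ∧
    TwChev P.root b.height (fun i j => P.reflectionPerm i j) K x ∧
    Nat.card F = Nat.card K₀ ^ m ∧ (∀ i j, A j i = -m → K (e i) = ⊤ ∧ K (e j) = K₀) ∧
    ∀ i j, i ≠ j → ∀ t u : F, t ∈ K (e i) → t ≠ 0 → u ∈ K (e j) →
      hn (fun i j => P.reflectionPerm i j) x (e i) t * x (e j) u *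
          (hn (fun i j => P.reflectionPerm i j) x (e i) t)⁻¹ =
        x (e j) ((if A j i = -m then (t ^ ((Nat.card F - 1) / (Nat.card K₀ - 1)))⁻¹
          else t ^ A j i) * u)

/-- `L` is `³D₄(q)`, `F` the field with `q³` elements -/
def Is3D4 (F : Type) [Field F] (L : Type*) [Group L] : Prop := IsTw G₂ 3 F L

/-- `L` is `²E₆(q)`, `F` the field with `q²` elements -/
def Is2E6 (F : Type) [Field F] (L : Type*) [Group L] : Prop := IsTw F₄ 2 F L

/-- `L` is `²E₆(q)`, where `p ≥ 5`, or `3` does not divide `q + 1`, or `p = 3` does not divide the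
order of `Aut(F)` -/
def Is2E6Few (p : ℕ) (F : Type) [Field F] (L : Type*) [Group L] : Prop :=
  Is2E6 F L ∧ (5 ≤ p ∨ (∃ q : ℕ, Nat.card F = q ^ 2 ∧ ¬ 3 ∣ q + 1) ∨
    (p = 3 ∧ ¬ 3 ∣ Nat.card (F ≃+* F)))

end Vale.Agent.P240.R2.H945
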