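import Vale.Agent.P240.R2.H945.W.X3
import Vale.Agent.P240.R2.H945.W.TwDefs
import Vale.Agent.P240.R2.H165.XA
import Vale.Agent.P240.R2.H281.X1

/-!
The twisted groups `³D₄(q)` and `²E₆(q)`: groups of Lie type.
-/

set_option autoImplicit false

namespace Vale.Agent.P240.R2.H945.W

open Subgroup Vale.Agent.P240.K Vale.Agent.P240.H195 Vale.Agent.P240.R2.H986.X CartanMatrix
open Vale.Agent.P240.R2.H165.XC

universe u v

/-- passage to the abstract relations -/
lemma ts_of_twChev {ι M N : Type} [AddCommGroup M] [Module ℚ M] [AddCommGroup N] [Module ℚ N]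
    {P : RootPairing ι ℚ M N} [P.IsCrystallographic] {b : P.Base} {F : Type} [Field F]
    {L : Type u} [Group L] {K : ι → Subfield F} {x : ι → F → L}
    (h : TwChev P.root b.height (fun i j => P.reflectionPerm i j) K x) {C : RC ι}
    (hht : C.ht = b.height) (hneg : ∀ i, C.neg i = P.reflectionPerm i i)
    (hs : ∀ i j, C.s i j = P.reflectionPerm i j)
    (hc : ∀ i j k, C.cone i j k ↔ ∃ m n : ℕ, 0 < m ∧ 0 < n ∧
      P.root k = m • P.root i + n • P.root j) : TS C K x := by
  have hneg' : C.neg = fun i => P.reflectionPerm i i := funext hneg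
  refine ⟨?_, h.add, h.inj, ?_, ?_, ?_, h.gen, ?_⟩
  · intro i j
    rw [hs]
    exact h.field i j
  · intro i j hij hij' t u ht hu
    have h1 : C.cone i j = fun k => ∃ m n : ℕ, 0 < m ∧ 0 < n ∧
      P.root k = m • P.root i + n • P.root j := by
      funext k
      exact propext (hc i j k)
    rw [h1]
    exact h.comm i j hij (by rwa [hneg] at hij') t u ht hu
  · intro i j
    rw [hneg', hs]
    exact h.refl i j
  · intro i
    rw [hneg']
    exact h.self i
  · rw [hht]
    exact h.opp

section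
variable {n : ℕ} {A : Matrix (Fin n) (Fin n) ℤ} {m : ℕ} {F : Type} [Field F] {L : Type u} [Group L]

/-- `h_i(t) = n_i(t) n_i(1)⁻¹` -/
def hh {ι : Type*} {F L : Type*} [Field F] [Group L] (C : RC ι) (x : ι → F → L) (i : ι) (t : F) :
    L := nn C.neg x i t * (nn C.neg x i 1)⁻¹

/-- the twisted relations over `RC`, with `e i` the simple roots -/
structure TD {ι : Type} (A : Matrix (Fin n) (Fin n) ℤ) (m : ℕ) (C : RC ι) (e : Fin n → ι)
    (K₀ : Subfield F) (K : ι → Subfield F) (x : ι → F → L) : Prop where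
  ts : TS C K x
  inj : Function.Injective e
  simp : ∀ i, C.simp i ↔ ∃ k, i = e k
  pr : ∀ i j, C.pr (e i) (e j) = A i j
  card : Nat.card F = Nat.card K₀ ^ m
  K_short : ∀ i j, A j i = -m → K (e i) = ⊤
  K_long : ∀ i j, A j i = -m → K (e j) = K₀
  K_eq : ∀ i j, A i j = -1 → A j i = -1 → K (e i) = K (e j)
  h_rel : ∀ i j, i ≠ j → ∀ t u : F, t ∈ K (e i) → t ≠ 0 → u ∈ K (e j) →
    hh C x (e i) t * x (e j) u * (hh C x (e i) t)⁻¹ =
      x (e j) ((if A j i = -m then (t ^ ((Nat.card F - 1) / (Nat.card K₀ - 1)))⁻¹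
        else t ^ A j i) * u)

/-- action of `h_i(t)`, `i` long, on `x_j(u)`, `j` short -/
lemma TD.h_long {ι : Type} {C : RC ι} {e : Fin n → ι} {K₀ : Subfield F} {K : ι → Subfield F}
    {x : ι → F → L} (h : TD A m C e K₀ K x) {i j : Fin n} (hij : A j i = -m) (hne : i ≠ j)
    (hji : A i j = -1) (hm : m ≠ 1) (t u : F) (ht : t ≠ 0) (ht' : t ∈ K₀) :
    hh C x (e j) t * x (e i) u * (hh C x (e j) t)⁻¹ = x (e i) (t⁻¹ * u) := by
  have h1 := h.h_rel j i hne.symm t u (by rwa [h.K_long i j hij]) ht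
    (by rw [h.K_short i j hij]; trivial)
  rw [if_neg (by rw [hji]; intro h2; apply hm; omega), hji, zpow_neg_one] at h1
  exact h1

/-- action of `h_i(t)`, `i` short, on `x_j(u)`, `j` long -/
lemma TD.h_short {ι : Type} {C : RC ι} {e : Fin n → ι} {K₀ : Subfield F} {K : ι → Subfield F}
    {x : ι → F → L} (h : TD A m C e K₀ K x) {i j : Fin n} (hij : A j i = -m) (hne : i ≠ j)
    (t u : F) (ht : t ≠ 0) (hu : u ∈ K₀) :
    hh C x (e i) t * x (e j) u * (hh C x (e i) t)⁻¹ =
      x (e j) ((t ^ ((Nat.card F - 1) / (Nat.card K₀ - 1)))⁻¹ * u) := by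
  have h1 := h.h_rel i j hne t u (by rw [h.K_short i j hij]; trivial) ht
    (by rwa [h.K_long i j hij])
  rw [if_pos hij] at h1
  exact h1

/-- everything exposed -/
theorem _root_.Vale.Agent.P240.R2.H945.IsTw.data (h : IsTw A m F L) (hA : Conn A)
    (hab : ∃ x y : L, x * y ≠ y * x) :
    ∃ (ι : Type) (_ : Finite ι) (C : RC ι) (e : Fin n → ι) (K₀ : Subfield F)
      (K : ι → Subfield F) (x : ι → F → L), TD A m C e K₀ K x := by
  classical
  obtain ⟨ι, hι, P, _, _, b, e, K₀, K, x, hb, he, hx, hcard, hK, hrel⟩ := h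
  have h0 : ∀ i, e i ∈ b.support := fun i => by
    rw [hb, Finset.mem_map]
    exact ⟨i, Finset.mem_univ i, rfl⟩
  let f : Fin n → b.support := fun i => ⟨e i, h0 i⟩
  have hf : Function.Bijective f := by
    constructor
    · intro i j hij
      exact e.injective (congrArg Subtype.val hij)
    · rintro ⟨k, hk⟩
      have hk' := hk
      rw [hb, Finset.mem_map] at hk'
      obtain ⟨i, -, hi⟩ := hk'
      exact ⟨i, Subtype.ext hi⟩
  let e' : b.support ≃ Fin n := (Equiv.ofBijective f hf).symm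
  have he' : ∀ i j, b.cartanMatrix i j = A (e' i) (e' j) := by
    intro i j
    obtain ⟨i, rfl⟩ := e'.symm.surjective i
    obtain ⟨j, rfl⟩ := e'.symm.surjective j
    rw [e'.apply_symm_apply, e'.apply_symm_apply, ← he]
    rfl
  have hB : Conn b.cartanMatrix := hA.transport e' he'
  have hne : b.support.Nonempty := by
    have : Nonempty ι := by
      by_contra hne
      rw [not_nonempty_iff] at hne
      have h1 : (⊤ : Subgroup L) ≤ ⊥ := by
        rw [← hx.gen, grK, closure_le]
        rintro _ ⟨i, -⟩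
        exact (hne.false i).elim
      obtain ⟨a, c, hac⟩ := hab
      have h2 := mem_bot.1 (h1 (mem_top a))
      exact hac (by rw [h2, one_mul, mul_one])
    exact b.support_nonempty
  obtain ⟨C, hht, hneg, hsr, hsimp, hpr, hc⟩ := H281X1.stmtX1 ι _ _ P b hne (by
      intro p ⟨i, hi, hpi⟩ hst j hj
      exact hB (fun k => p k.1) ⟨⟨i, hi⟩, hpi⟩
        (fun i j hi hij => hst i.1 j.1 i.2 j.2 hi hij) ⟨j, hj⟩)
  have hTS := ts_of_twChev hx hht hneg hsr hc
  have hneg' : C.neg = fun i => P.reflectionPerm i i := funext hneg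
  refine ⟨ι, hι, C, e, K₀, K, x, hTS, e.injective, ?_, ?_, hcard, fun i j hij => (hK i j hij).1,
    fun i j hij => (hK i j hij).2, ?_, ?_⟩
  · intro i
    rw [hsimp, hb, Finset.mem_map]
    constructor
    · rintro ⟨k, -, rfl⟩
      exact ⟨k, rfl⟩
    · rintro ⟨k, rfl⟩
      exact ⟨k, Finset.mem_univ k, rfl⟩
  · intro i j
    rw [hpr]
    exact he i j
  · intro i j hij hji
    have h1 : P.pairing (e i) (e j) = -1 := by
      rw [← P.algebraMap_pairingIn ℤ, he, hij]
      simp
    have h2 : P.pairing (e j) (e i) = -1 := by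
      rw [← P.algebraMap_pairingIn ℤ, he, hji]
      simp
    have h3 : P.reflectionPerm (e i) (P.reflectionPerm (e j) (e i)) = e j := by
      apply P.root.injective
      rw [RootPairing.root_reflectionPerm, RootPairing.root_reflectionPerm,
        RootPairing.reflection_apply_root, h1, map_sub, map_smul,
        RootPairing.reflection_apply_self, RootPairing.reflection_apply_root, h2]
      module
    rw [← h3, hx.field, hx.field]
  · intro i j hij t u ht ht0 hu
    have h1 := hrel i j hij t u ht ht0 hu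
    rw [hh, hneg']
    exact h1

/-- **groups of Lie type** -/
theorem _root_.Vale.Agent.P240.R2.H945.IsTw.lie [Finite F] [Finite L] (h : IsTw A m F L)
    (hA : Conn A) (hs : IsSimpleGroup L) (hab : ∃ x y : L, x * y ≠ y * x) (r : ℕ)
    [Fact r.Prime] [CharP F r] : LieType r L := by
  have hZ := centre_of_nonabelian hs hab
  obtain ⟨ι, _, C, e, K₀, K, x, hd⟩ := h.data hA hab
  exact ⟨hs, hZ, _, _, _, _, splitBN hd.ts hZ r⟩

end

end Vale.Agent.P240.R2.H945.W
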