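import Vale.Agent.P240.R2.H945.W.TwP
import Vale.Agent.P240.R2.H986.W.X4
import Vale.Agent.P240.R2.H164.TW1

/-!
`²E₆(q)`: few automorphisms of order `3`.
-/

set_option autoImplicit false

namespace Vale.Agent.P240.R2.H945.W

open Subgroup Vale.Agent.P240.K Vale.Agent.P240.H195 CartanMatrix
open Vale.Agent.P240.R2.H165.XC (centre_of_nonabelian)
open Vale.Agent.P240.R2.H997
open Vale.Agent.P240.R2.H986.X (RC nn nl wl SS)
open Vale.Agent.P240.R2.H164.EX (exists_e)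
open Vale.Agent.P240.R2.H164.TW (AG ext_simple AlT_mul AlT_pow sigma_one opp_nl)

universe u v

section
variable {ι : Type} {F : Type} [Field F] {L : Type u} [Group L] {C : RC ι} {K : ι → Subfield F}
  {x : ι → F → L}

/-- the scalars `c` on the simple root elements are given by an element of `L` -/
def ImT (C : RC ι) (K : ι → Subfield F) (x : ι → F → L) (c : ι → F) : Prop :=
  ∃ g : L, ∀ j, C.simp j → ∀ u, u ∈ K j → g * x j u * g⁻¹ = x j (c j * u) ∧
    g * x (C.neg j) u * g⁻¹ = x (C.neg j) ((c j)⁻¹ * u)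

lemma imT_of (h : TS C K x) {c : ι → F} {g : L} (hg : g ∈ TT C K x)
    (hc : ∀ j, C.simp j → Ac K x j g (c j)) : ImT C K x c := by
  refine ⟨g, fun j hj u hu => ⟨(hc j hj).2 u hu, ?_⟩⟩
  obtain ⟨c', hc'K, hc', h2⟩ := H164.TW.T_act2 h hg j
  have h3 : c' = c j := by
    have h4 := (h2 1 (one_mem _)).1
    have h5 := (hc j hj).2 1 (one_mem _)
    rw [mul_one] at h4 h5
    rw [h4] at h5
    exact h.x_inj hc'K (hc j hj).1 h5
  rw [← h3]
  exact (h2 u hu).2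

/-- **few automorphisms** if `F` has no automorphisms of order `p` and the diagonal automorphisms have
rank one -/
theorem few_rank [Finite ι] [Finite F] [Finite L] (h : TS C K x)
    (hcen : ∀ g : L, (∀ y, g * y = y * g) → g = 1) (r : ℕ) [Fact r.Prime] [CharP F r]
    (hLC : LC C K x) (hPC : PC C K) {p : ℕ} (hp : p.Prime)
    (hσ : ∀ σ : RingAut F, σ ^ p = 1 → σ = 1)
    (hRK : ∀ c c' : ι → F, (∀ i, C.simp i → c i ∈ K i ∧ c i ≠ 0) →
      (∀ i, C.simp i → c' i ∈ K i ∧ c' i ≠ 0) →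
      ImT C K x c ∨ ∃ k : ℕ, ImT C K x (fun i => c' i * c i ^ k)) : FewAut p L := by
  have hr : r.Prime := Fact.out
  obtain ⟨l, hls, hl⟩ := C.long
  obtain ⟨i₀, hi₀, hK, -⟩ := id hLC
  have hSB : SB r (BB C K x) (NN C K x) (UU C K x) (SS C x) := (splitBN h hcen r).toSB
  have hn₀ : nl C x l ∈ NN C K x := TS.nl_mem hls
  have hopp := opp_nl h hl
  have hnI : (MulAut.conj (G := L)).range.Normal := normal_conj
  -- normal form of an outer automorphism of order `p`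
  have norm : ∀ f : MulAut L, OutAut p f → ∃ (e : MulAut L) (c : ι → F),
      AlT C K x e (1 : RingAut F) c ∧ e ∈ zpowers f ⊔ (MulAut.conj (G := L)).range ∧
      f ∈ zpowers e ⊔ (MulAut.conj (G := L)).range ∧ e ∉ (MulAut.conj (G := L)).range := by
    intro f hf
    obtain ⟨e, ⟨a, hea⟩, heB, heC, hef, hfe, hep, heI⟩ := exists_e hSB hr hp hn₀ hopp hf
    obtain ⟨σ, c, hc⟩ := stmtT4 ι F L r C K x h hcen hLC hPC l hls hl e heB heC
    have hAG : (e, (σ : RingAut F)) ∈ AG C K x := ⟨c, hc⟩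
    have hAGp : (e ^ p, (σ : RingAut F) ^ p) ∈ AG C K x := pow_mem hAG p
    obtain ⟨c', hc'⟩ := hAGp
    have hσp : (σ : RingAut F) ^ p = 1 :=
      sigma_one hr h hSB hls hl ⟨i₀, hi₀, hK⟩ hep (am_pow_eq heB p) (am_pow_eq heC p) hc'
    obtain rfl := hσ σ hσp
    exact ⟨e, c, hc, hef, hfe, heI⟩
  have inn : ∀ (e : MulAut L) (c : ι → F), AlT C K x e (1 : RingAut F) c → ImT C K x c →
      e ∈ (MulAut.conj (G := L)).range := by
    rintro e c he ⟨g, hg⟩
    refine ⟨g, (ext_simple h fun i hi t ht => ?_).symm⟩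
    obtain ⟨-, -, h1⟩ := he i hi
    rw [MulAut.conj_apply, MulAut.conj_apply, (hg i hi t ht).1, (hg i hi t ht).2, (h1 t ht).2.1,
      (h1 t ht).2.2, RingAut.one_apply]
    exact ⟨rfl, rfl⟩
  have key : ∀ f g : MulAut L, OutAut p f → OutAut p g →
      g ∈ zpowers f ⊔ (MulAut.conj (G := L)).range := by
    intro f g hf hg
    obtain ⟨e, c, hc, hef, -, heI⟩ := norm f hf
    obtain ⟨e', c', hc', -, hge, -⟩ := norm g hg
    rcases hRK c c' (fun i hi => ⟨(hc i hi).1, (hc i hi).2.1⟩)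
      (fun i hi => ⟨(hc' i hi).1, (hc' i hi).2.1⟩) with h1 | ⟨k, h1⟩
    · exact absurd (inn e c hc h1) heI
    have h2 := AlT_mul hc' (AlT_pow hc k)
    rw [mul_one] at h2
    have h3 := inn _ _ h2 h1
    set I := (MulAut.conj (G := L)).range with hI
    have he'e : e' ∈ zpowers e ⊔ I := by
      have h4 : e' = (e' * e ^ k) * e ^ (-(k : ℤ)) := by
        rw [zpow_neg, zpow_natCast, mul_inv_cancel_right]
      rw [h4]
      exact mul_mem ((le_sup_right : I ≤ _) h3)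
        ((le_sup_left : zpowers e ≤ _) (zpow_mem (mem_zpowers e) _))
    have h5 : zpowers e ⊔ I ≤ zpowers f ⊔ I :=
      sup_le (by rw [zpowers_le]; exact hef) le_sup_right
    have h6 : zpowers e' ⊔ I ≤ zpowers f ⊔ I :=
      sup_le (by rw [zpowers_le]; exact h5 he'e) le_sup_right
    exact h6 hge
  exact ⟨fun f g _ hf hg _ => Or.inl (key f g hf hg), Or.inl fun f g hf hg => key f g hf hg⟩

end

section
variable {F : Type} [Field F] {L : Type u} [Group L] {ι : Type} {C : RC ι} {e : Fin 4 → ι}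
  {K₀ : Subfield F} {K : ι → Subfield F} {x : ι → F → L}

/-- the characters `(a, b, t y³, t)` -/
lemma TD.ac_mod [Finite F] (h : TD F₄ 2 C e K₀ K x) {a b y t : F} (ha : a ∈ K₀) (hb : b ∈ K₀)
    (n0 : a ≠ 0) (n1 : b ≠ 0) (n2 : y ≠ 0) (n3 : t ≠ 0) : ∃ g ∈ TT C K x, Ac K x (e 0) g a ∧
      Ac K x (e 1) g b ∧ Ac K x (e 2) g (t * y ^ 3) ∧ Ac K x (e 3) g t := by
  obtain ⟨g, hg, g0, g1, g2, g3⟩ := h.ac_sub ha hb (one_mem _) (one_mem _) n0 n1 one_ne_zero
    one_ne_zero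
  obtain ⟨g', hg', g0', g1', g2', g3'⟩ := h.ac_cube (one_mem _) (one_mem _) one_ne_zero one_ne_zero
    n2 n3
  obtain ⟨g'', hg'', g0'', g1'', g2'', g3''⟩ := h.ac_all (t₀ := 1) (t₁ := 1) (t₂ := 1)
    (t₃ := t⁻¹) (one_mem _) (one_mem _) one_ne_zero one_ne_zero one_ne_zero (inv_ne_zero n3)
  refine ⟨g * g' * g'', mul_mem (mul_mem hg hg') hg'', ?_, ?_, ?_, ?_⟩
  · convert (g0.mul g0').mul g0'' using 1
    simp
  · convert (g1.mul g1').mul g1'' using 1
    simp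
  · convert (g2.mul g2').mul g2'' using 1
    simp [mul_comm]
  · convert (g3.mul g3').mul g3'' using 1
    field_simp

/-- rank one -/
theorem TD.rk [Finite F] (h : TD F₄ 2 C e K₀ K x) (c c' : ι → F)
    (hc : ∀ i, C.simp i → c i ∈ K i ∧ c i ≠ 0) (hc' : ∀ i, C.simp i → c' i ∈ K i ∧ c' i ≠ 0) :
    ImT C K x c ∨ ∃ k : ℕ, ImT C K x (fun i => c' i * c i ^ k) := by
  obtain ⟨w, hw⟩ := IsCyclic.exists_generator (α := Fˣ)
  have hs : ∀ k, C.simp (e k) := fun k => (h.simp _).2 ⟨k, rfl⟩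
  -- the criterion
  have crit : ∀ c : ι → F, (∀ i, C.simp i → c i ∈ K i ∧ c i ≠ 0) → ∀ m n : ℤ,
      c (e 2) = (w ^ m : Fˣ) → c (e 3) = (w ^ n : Fˣ) → (3 : ℤ) ∣ m - n → ImT C K x c := by
    rintro c hc m n hm hn ⟨k, hk⟩
    have h0 := hc (e 0) (hs 0)
    have h1 := hc (e 1) (hs 1)
    rw [h.K4_0] at h0
    rw [h.K4_1] at h1
    obtain ⟨g, hg, g0, g1, g2, g3⟩ := h.ac_mod (y := (w ^ k : Fˣ)) (t := (w ^ n : Fˣ)) h0.1 h1.1
      h0.2 h1.2 (Units.ne_zero _) (Units.ne_zero _)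
    refine imT_of h.ts hg fun j hj => ?_
    rcases h.simp4 hj with rfl | rfl | rfl | rfl
    · exact g0
    · exact g1
    · convert g2 using 1
      rw [hm, ← Units.val_pow_eq_pow_val, ← Units.val_mul, ← zpow_natCast, ← zpow_mul, ← zpow_add]
      congr 2
      push_cast
      linarith
    · rw [hn]
      exact g3
  have hex : ∀ y : F, y ≠ 0 → ∃ m : ℤ, y = (w ^ m : Fˣ) := by
    intro y hy
    obtain ⟨m, hm⟩ := mem_zpowers_iff.1 (hw (Units.mk0 y hy))
    exact ⟨m, by rw [hm, Units.val_mk0]⟩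
  obtain ⟨m, hm⟩ := hex _ (hc (e 2) (hs 2)).2
  obtain ⟨n, hn⟩ := hex _ (hc (e 3) (hs 3)).2
  obtain ⟨m', hm'⟩ := hex _ (hc' (e 2) (hs 2)).2
  obtain ⟨n', hn'⟩ := hex _ (hc' (e 3) (hs 3)).2
  by_cases h3 : (3 : ℤ) ∣ m - n
  · exact Or.inl (crit c hc m n hm hn h3)
  right
  have hadm : ∀ k : ℕ, ∀ i, C.simp i → c' i * c i ^ k ∈ K i ∧ c' i * c i ^ k ≠ 0 := fun k i hi =>
    ⟨mul_mem (hc' i hi).1 (pow_mem (hc i hi).1 k),
      mul_ne_zero (hc' i hi).2 (pow_ne_zero k (hc i hi).2)⟩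
  have hval : ∀ (k : ℕ) (a b : ℤ), ((w ^ a : Fˣ) : F) * ((w ^ b : Fˣ) : F) ^ k =
      ((w ^ (a + k * b) : Fˣ) : F) := by
    intro k a b
    rw [← Units.val_pow_eq_pow_val, ← Units.val_mul, ← zpow_natCast, ← zpow_mul, ← zpow_add,
      mul_comm b]
  have hk : ∃ k : ℕ, (3 : ℤ) ∣ (m' + k * m) - (n' + k * n) := by
    by_cases h0 : (3 : ℤ) ∣ m' - n'
    · exact ⟨0, by simpa using h0⟩
    by_cases h1 : (3 : ℤ) ∣ (m' - n') + (m - n)
    · exact ⟨1, by push_cast; convert h1 using 1; ring⟩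
    · refine ⟨2, ?_⟩
      push_cast
      have h5 : (m - n) % 3 = 1 ∨ (m - n) % 3 = 2 := by omega
      have h6 : (m' - n') % 3 = 1 ∨ (m' - n') % 3 = 2 := by omega
      rcases h5 with h5 | h5 <;> rcases h6 with h6 | h6 <;> omega
  obtain ⟨k, hk⟩ := hk
  exact ⟨k, crit _ (hadm k) _ _ (by rw [hm, hm', hval]) (by rw [hn, hn', hval]) hk⟩

end

section
variable {F : Type} [Field F] [Finite F] {L : Type u} [Group L] [Finite L]

/-- **`²E₆(q)`: few automorphisms of order `3`** if the order of the group of automorphisms of `F` is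
not divisible by `3` -/
theorem few2E6_three (h : Is2E6 F L) (hs : IsSimpleGroup L)
    (hab : ∃ x y : L, x * y ≠ y * x) {r : ℕ} [Fact r.Prime] [CharP F r] {p : ℕ} (hp : p = 3)
    (h3 : ¬ 3 ∣ Nat.card (F ≃+* F)) : FewAut p L := by
  subst hp
  obtain ⟨ι, _, C, e, K₀, K, x, hd⟩ := h.data H165.XC.F4_conn hab
  refine few_rank hd.ts (centre_of_nonabelian hs hab) r hd.lc4 hd.pc4 Nat.prime_three ?_ hd.rk
  intro σ hσ
  have h1 : orderOf σ ∣ 3 := orderOf_dvd_of_pow_eq_one hσ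
  rcases (Nat.dvd_prime Nat.prime_three).1 h1 with h2 | h2
  · exact orderOf_eq_one_iff.1 h2
  · exact absurd (h2 ▸ orderOf_dvd_natCard σ) h3

end

end Vale.Agent.P240.R2.H945.W
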