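import Vale.Agent.P240.R2.H945.W.TwG
import Vale.Agent.P240.R2.H945.W.TwQ
import Vale.Agent.P240.R2.H986.W.X4
import Vale.Agent.P240.R2.H164.TW1

/-!
The twisted groups `³D₄(q)` and `²E₆(q)`: main theorems.
-/

set_option autoImplicit false

namespace Vale.Agent.P240.R2.H945

open Subgroup Vale.Agent.P240.K Vale.Agent.P240.H195 CartanMatrix
open Vale.Agent.P240.R2.H165.XC

universe u v

/-- the end part, from `164`'s `fewAut_of` and `986`'s `stmtT4` -/
theorem W.stmtT5 : W.StmtT5.{u} := by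
  intro ι _ F _ _ L _ _ r _ _ C K x hx hZ hLC hPC d hD p hp hpr hpd hpt
  obtain ⟨l, hl, hl'⟩ := C.long
  obtain ⟨i₀, hi₀, hK, -⟩ := id hLC
  exact H164.TW.fewAut_of hx hZ r hl hl' ⟨i₀, hi₀, hK⟩ hp hpd hpt hD fun e _ heB heC =>
    W.stmtT4 ι F L r C K x hx hZ hLC hPC l hl hl' e heB heC

section
variable {F : Type} [Field F] [Finite F] {L : Type u} [Group L] [Finite L]

/-- `³D₄(q)`: groups of Lie type -/
theorem Is3D4.lie (h : Is3D4 F L) (hs : IsSimpleGroup L) (hab : ∃ x y : L, x * y ≠ y * x) (r : ℕ)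
    [Fact r.Prime] [CharP F r] : LieType r L := (h.main hs hab r).1

/-- `³D₄(q)`: rigid -/
theorem Is3D4.rigid (h : Is3D4 F L) (hs : IsSimpleGroup L) (hab : ∃ x y : L, x * y ≠ y * x) (r : ℕ)
    [Fact r.Prime] [CharP F r] : RigidLie r L := (h.main hs hab r).2

/-- `²E₆(q)`: groups of Lie type -/
theorem Is2E6.lie (h : Is2E6 F L) (hs : IsSimpleGroup L) (hab : ∃ x y : L, x * y ≠ y * x) (r : ℕ)
    [Fact r.Prime] [CharP F r] : LieType r L := (h.main hs hab r).1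

/-- `²E₆(q)`: rigid -/
theorem Is2E6.rigid (h : Is2E6 F L) (hs : IsSimpleGroup L) (hab : ∃ x y : L, x * y ≠ y * x) (r : ℕ)
    [Fact r.Prime] [CharP F r] : RigidLie r L := (h.main hs hab r).2

/-- **`³D₄(q)`: few automorphisms** -/
theorem Is3D4.few (h : Is3D4 F L) (hs : IsSimpleGroup L) (hab : ∃ x y : L, x * y ≠ y * x) {r : ℕ}
    [Fact r.Prime] [CharP F r] {p : ℕ} (hp : p.Prime) (hpr : p ≠ r) : FewAut p L :=
  W.few3D4 W.stmtT5 h hs hab hp hpr

/-- **`²E₆(q)`: few automorphisms** of order `p ≥ 5`, or if `3` does not divide `q + 1` -/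
theorem Is2E6.few (h : Is2E6 F L) (hs : IsSimpleGroup L) (hab : ∃ x y : L, x * y ≠ y * x) {r : ℕ}
    [Fact r.Prime] [CharP F r] {p : ℕ} (hp : p.Prime) (hpr : p ≠ r)
    (h3 : 5 ≤ p ∨ ∃ q : ℕ, Nat.card F = q ^ 2 ∧ ¬ 3 ∣ q + 1) : FewAut p L :=
  W.few2E6 W.stmtT5 h hs hab hp hpr h3

/-- **`³D₄(q)`** for all fields `𝕜`, all `l` -/
theorem Is3D4.good_all {p : ℕ} [hp : Fact p.Prime] (h : Is3D4 F L) (hs : IsSimpleGroup L)
    (hab : ∃ x y : L, x * y ≠ y * x) (𝕜 : Type v) [Field 𝕜] (l : ℕ) : GoodFactor 𝕜 p l L := by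
  obtain ⟨r, hrc⟩ := CharP.exists F
  have hr : Fact r.Prime := ⟨(CharP.char_is_prime_or_zero F r).resolve_right
    (CharP.char_ne_zero_of_finite F r)⟩
  have h1 := h.main hs hab r
  by_cases hpr : p = r
  · subst hpr
    exact Or.inr (Or.inl h1.2)
  · exact Or.inr (Or.inr (Or.inr (Or.inl ⟨r, hr.out, h1.1.autFree hr.out hp.out hpr,
      Or.inr (Or.inr (Or.inl (h.few hs hab hp.out hpr)))⟩)))

/-- **`²E₆(q)`: few automorphisms**, all cases -/
theorem Is2E6Few.few {p : ℕ} (h : Is2E6Few p F L) (hs : IsSimpleGroup L)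
    (hab : ∃ x y : L, x * y ≠ y * x) {r : ℕ} [Fact r.Prime] [CharP F r] (hp : p.Prime)
    (hpr : p ≠ r) : FewAut p L := by
  rcases h with ⟨h, h3 | h3 | ⟨h3, h4⟩⟩
  · exact h.few hs hab hp hpr (Or.inl h3)
  · exact h.few hs hab hp hpr (Or.inr h3)
  · exact W.few2E6_three (r := r) h hs hab h3 h4

/-- groups of Lie type, rigid -/
theorem Is2E6Few.main {p : ℕ} (h : Is2E6Few p F L) (hs : IsSimpleGroup L)
    (hab : ∃ x y : L, x * y ≠ y * x) (r : ℕ) [Fact r.Prime] [CharP F r] :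
    LieType r L ∧ RigidLie r L := h.1.main hs hab r

/-- **`²E₆(q)`** for all fields `𝕜`, all `l`, if `p ≥ 5` or `3` does not divide `q + 1`, or `p = 3`
does not divide the order of `Aut(F)` -/
theorem Is2E6Few.good_all {p : ℕ} [hp : Fact p.Prime] (h : Is2E6Few p F L) (hs : IsSimpleGroup L)
    (hab : ∃ x y : L, x * y ≠ y * x) (𝕜 : Type v) [Field 𝕜] (l : ℕ) : GoodFactor 𝕜 p l L := by
  obtain ⟨r, hrc⟩ := CharP.exists F
  have hr : Fact r.Prime := ⟨(CharP.char_is_prime_or_zero F r).resolve_right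
    (CharP.char_ne_zero_of_finite F r)⟩
  have h1 := h.main hs hab r
  by_cases hpr : p = r
  · subst hpr
    exact Or.inr (Or.inl h1.2)
  · exact Or.inr (Or.inr (Or.inr (Or.inl ⟨r, hr.out, h1.1.autFree hr.out hp.out hpr,
      Or.inr (Or.inr (Or.inl (h.few hs hab hp.out hpr)))⟩)))

end

end Vale.Agent.P240.R2.H945
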