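import Vale.Agent.P240.R2.H986.X.Stm

/-!
Twisted Chevalley groups: the root elements `x i t` are defined for `t` in a subfield `K i`.
-/

set_option autoImplicit false

namespace Vale.Agent.P240.R2.H945.W

open Subgroup Vale.Agent.P240.R2.H986.X

section
variable {ι : Type*} {F : Type*} [Field F] {L : Type*} [Group L]

/-- the subgroup generated by the root elements `x i t` with `p i` and `t ∈ K i` -/
def gr (K : ι → Subfield F) (x : ι → F → L) (p : ι → Prop) : Subgroup L :=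
  closure {g | ∃ i t, p i ∧ t ∈ K i ∧ g = x i t}

/-- Chevalley's relations for root elements with parameters in subfields (abstract form). -/
structure TS (C : RC ι) (K : ι → Subfield F) (x : ι → F → L) : Prop where
  K_s : ∀ i j, K (C.s i j) = K j
  add : ∀ i t u, t ∈ K i → u ∈ K i → x i (t + u) = x i t * x i u
  inj : ∀ i t, t ∈ K i → x i t = 1 → t = 0
  comm : ∀ i j, i ≠ j → i ≠ C.neg j → ∀ t u, t ∈ K i → u ∈ K j →
    x i t * x j u * (x i t)⁻¹ * (x j u)⁻¹ ∈ gr K x (C.cone i j)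
  refl : ∀ i j, ∃ τ : F ≃+* F, (∀ u, τ u ∈ K j ↔ u ∈ K j) ∧ ∀ t, t ∈ K i → t ≠ 0 →
    ∃ c, c ∈ K j ∧ c ≠ 0 ∧ ∀ u, u ∈ K j →
    nn C.neg x i t * x j u * (nn C.neg x i t)⁻¹ = x (C.s i j) (c * τ u) ∧
    nn C.neg x i t * x (C.neg j) u * (nn C.neg x i t)⁻¹ = x (C.neg (C.s i j)) (c⁻¹ * τ u)
  self : ∀ i, ∃ c : F, c * c = 1 ∧ ∀ t u : F, t ∈ K i → u ∈ K i → t ≠ 0 →
    nn C.neg x i t * x (C.neg i) u * (nn C.neg x i t)⁻¹ = x i (c * (t * t) * u)
  gen : gr K x (fun _ => True) = ⊤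
  opp : gr K x (fun i => 0 < C.ht i) ⊓ gr K x (fun i => C.ht i < 0) = ⊥

/-- `U` -/
def UU (C : RC ι) (K : ι → Subfield F) (x : ι → F → L) : Subgroup L := gr K x (fun i => 0 < C.ht i)

/-- `U⁻` -/
def UM (C : RC ι) (K : ι → Subfield F) (x : ι → F → L) : Subgroup L := gr K x (fun i => C.ht i < 0)

/-- `T`, generated by the elements `h_i(t) = n_i(t) n_i(1)⁻¹` (all roots `i`) -/
def TT (C : RC ι) (K : ι → Subfield F) (x : ι → F → L) : Subgroup L :=
  closure {g | ∃ i t, t ∈ K i ∧ t ≠ 0 ∧ g = nn C.neg x i t * (nn C.neg x i 1)⁻¹}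

/-- `B = U T` -/
def BB (C : RC ι) (K : ι → Subfield F) (x : ι → F → L) : Subgroup L := UU C K x ⊔ TT C K x

/-- `N` -/
def NN (C : RC ι) (K : ι → Subfield F) (x : ι → F → L) : Subgroup L := closure (SS C x) ⊔ TT C K x

end

end Vale.Agent.P240.R2.H945.W
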