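import Vale.Agent.P240.R2.H945.W.Defs
import Vale.Agent.P240.R2.H986.X.NT

/-!
The groups `T` and `N`.
-/

set_option autoImplicit false

namespace Vale.Agent.P240.R2.H945.W

open Subgroup Vale.Agent.P240.H195
open Vale.Agent.P240.R2.H986.X (RC nn nl wl nl_nil nl_cons nl_append wl_nil wl_cons wl_append wl_neg wl_s
  wl_rev wl_rev' SS)

section
variable {ι : Type*} {F : Type*} [Field F] {L : Type*} [Group L] {C : RC ι} {K : ι → Subfield F}
  {x : ι → F → L}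

namespace TS

variable (h : TS C K x)
include h

lemma K_neg (i : ι) : K (C.neg i) = K i := by
  rw [← C.s_self i, h.K_s]

lemma K_wl (l : List ι) (j : ι) : K (wl C l j) = K j := by
  induction l with
  | nil => rfl
  | cons i l ih => rw [wl_cons, h.K_s, ih]

lemma x_zero (i : ι) : x i 0 = 1 := by
  have h1 := h.add i 0 0 (zero_mem _) (zero_mem _)
  rw [add_zero] at h1
  exact mul_eq_left.1 h1.symm

lemma x_neg (i : ι) {t : F} (ht : t ∈ K i) : x i (-t) = (x i t)⁻¹ := by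
  rw [eq_inv_iff_mul_eq_one, ← h.add i _ _ (neg_mem ht) ht, neg_add_cancel, h.x_zero]

lemma x_inj {i : ι} {t u : F} (ht : t ∈ K i) (hu : u ∈ K i) (e : x i t = x i u) : t = u := by
  have h1 : x i (t + -u) = 1 := by
    rw [h.add i _ _ ht (neg_mem hu), h.x_neg i hu, e, mul_inv_cancel]
  have h2 := h.inj i _ (add_mem ht (neg_mem hu)) h1
  linear_combination h2

/-- the inverse of `n_i(t)` -/
lemma nn_inv (i : ι) {t : F} (ht : t ∈ K i) : (nn C.neg x i t)⁻¹ = nn C.neg x i (-t) := by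
  have ht' : -t⁻¹ ∈ K (C.neg i) := by
    rw [h.K_neg]
    exact neg_mem (inv_mem ht)
  rw [nn, nn, mul_inv_rev, mul_inv_rev, ← h.x_neg i ht, ← h.x_neg _ ht', inv_neg, neg_neg, mul_assoc]

/-- the action of `n_i(t)` -/
lemma nn_act (i j : ι) {t : F} (ht : t ∈ K i) (ht0 : t ≠ 0) : ∃ φ : F → F,
    (∀ u, u ∈ K j → φ u ∈ K j) ∧ (∀ u, u ∈ K j → u ≠ 0 → φ u ≠ 0) ∧
    (∀ u, u ∈ K j → nn C.neg x i t * x j u * (nn C.neg x i t)⁻¹ = x (C.s i j) (φ u)) ∧
    (∀ u, u ∈ K j → u ≠ 0 → nn C.neg x i t * nn C.neg x j u * (nn C.neg x i t)⁻¹ =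
      nn C.neg x (C.s i j) (φ u)) := by
  obtain ⟨τ, hτ, h1⟩ := h.refl i j
  obtain ⟨c, hc, hc0, h2⟩ := h1 t ht ht0
  refine ⟨fun u => c * τ u, fun u hu => mul_mem hc ((hτ u).2 hu), fun u _ hu0 =>
    mul_ne_zero hc0 (by simpa using hu0), fun u hu => (h2 u hu).1, fun u hu hu0 => ?_⟩
  have h3 := (h2 u hu).1
  have h4 := (h2 (-u⁻¹) (neg_mem (inv_mem hu))).2
  have e1 : c⁻¹ * τ (-u⁻¹) = -(c * τ u)⁻¹ := by
    rw [map_neg, map_inv₀, mul_inv]
    ring
  rw [e1] at h4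
  calc nn C.neg x i t * nn C.neg x j u * (nn C.neg x i t)⁻¹
      = (nn C.neg x i t * x j u * (nn C.neg x i t)⁻¹) *
        (nn C.neg x i t * x (C.neg j) (-u⁻¹) * (nn C.neg x i t)⁻¹) *
        (nn C.neg x i t * x j u * (nn C.neg x i t)⁻¹) := by
          rw [show nn C.neg x j u = x j u * x (C.neg j) (-u⁻¹) * x j u from rfl]; group
    _ = _ := by rw [h3, h4]; rfl

/-- `h_i(t)` -/
lemma h_mem {i : ι} {t : F} (ht : t ∈ K i) (ht0 : t ≠ 0) :
    nn C.neg x i t * (nn C.neg x i 1)⁻¹ ∈ TT C K x :=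
  subset_closure ⟨i, t, ht, ht0, rfl⟩

lemma nn_nn {i : ι} {t u : F} (ht : t ∈ K i) (ht0 : t ≠ 0) (hu : u ∈ K i) (hu0 : u ≠ 0) :
    nn C.neg x i t * nn C.neg x i u ∈ TT C K x := by
  have h1 : nn C.neg x i u = (nn C.neg x i (-u))⁻¹ := by rw [h.nn_inv i (neg_mem hu), neg_neg]
  have e1 : nn C.neg x i t * nn C.neg x i u = (nn C.neg x i t * (nn C.neg x i 1)⁻¹) *
      (nn C.neg x i (-u) * (nn C.neg x i 1)⁻¹)⁻¹ := by rw [h1]; group
  rw [e1]
  exact mul_mem (h.h_mem ht ht0) (inv_mem (h.h_mem (neg_mem hu) (neg_ne_zero.2 hu0)))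

lemma nn_inv_nn {i : ι} {t u : F} (ht : t ∈ K i) (ht0 : t ≠ 0) (hu : u ∈ K i) (hu0 : u ≠ 0) :
    (nn C.neg x i t)⁻¹ * nn C.neg x i u ∈ TT C K x := by
  rw [h.nn_inv i ht]
  exact h.nn_nn (neg_mem ht) (neg_ne_zero.2 ht0) hu hu0

/-- the action of `h_i(t)` on the root elements -/
lemma h_act (i j : ι) {t : F} (ht : t ∈ K i) (ht0 : t ≠ 0) : ∃ c, c ∈ K j ∧ c ≠ 0 ∧
    ∀ u, u ∈ K j →
    (nn C.neg x i t * (nn C.neg x i 1)⁻¹) * x j u * (nn C.neg x i t * (nn C.neg x i 1)⁻¹)⁻¹ =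
      x j (c * u) := by
  obtain ⟨τ, hτ, h1⟩ := h.refl i (C.s i j)
  obtain ⟨c, hc, hc0, h2⟩ := h1 1 (one_mem _) one_ne_zero
  obtain ⟨d, hd, hd0, h3⟩ := h1 t ht ht0
  rw [h.K_s] at hτ hc hd h2 h3
  rw [C.s_s] at h2 h3
  refine ⟨d * c⁻¹, mul_mem hd (inv_mem hc), mul_ne_zero hd0 (inv_ne_zero hc0), fun u hu => ?_⟩
  have hv : τ.symm (c⁻¹ * u) ∈ K j := by
    rw [← hτ, τ.apply_symm_apply]
    exact mul_mem (inv_mem hc) hu
  have h4 := (h2 _ hv).1
  have h5 := (h3 _ hv).1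
  rw [τ.apply_symm_apply, mul_inv_cancel_left₀ hc0] at h4
  rw [τ.apply_symm_apply, ← mul_assoc] at h5
  rw [← h5, ← h4]
  group

/-- the action of `h_i(t)` on the root elements `x_i(u)` -/
lemma h_self (i : ι) {t : F} (ht : t ∈ K i) (ht0 : t ≠ 0) {u : F} (hu : u ∈ K i) :
    (nn C.neg x i t * (nn C.neg x i 1)⁻¹) * x i u * (nn C.neg x i t * (nn C.neg x i 1)⁻¹)⁻¹ =
      x i (t * t * u) := by
  obtain ⟨c, hc, h1⟩ := h.self i
  have hcK : c ∈ K i := by
    have h2 : (c - 1) * (c + 1) = 0 := by linear_combination hc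
    rcases mul_eq_zero.1 h2 with h3 | h3
    · rw [sub_eq_zero.1 h3]; exact one_mem _
    · rw [eq_neg_of_add_eq_zero_left h3]; exact neg_mem (one_mem _)
  have h2 := h1 1 (c * u) (one_mem _) (mul_mem hcK hu) one_ne_zero
  have h3 := h1 t (c * u) ht (mul_mem hcK hu) ht0
  rw [mul_one, mul_one, ← mul_assoc, hc, one_mul] at h2
  rw [show c * (t * t) * (c * u) = t * t * u by linear_combination (t * t * u) * hc] at h3
  rw [← h3, ← h2]
  group

/-- `T` acts on the root elements by scalars -/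
lemma T_act {g : L} (hg : g ∈ TT C K x) (j : ι) : ∃ c : F, c ∈ K j ∧ c ≠ 0 ∧
    ∀ u, u ∈ K j → g * x j u * g⁻¹ = x j (c * u) := by
  refine closure_induction (p := fun g _ => ∃ c : F, c ∈ K j ∧ c ≠ 0 ∧
    ∀ u, u ∈ K j → g * x j u * g⁻¹ = x j (c * u)) ?_ ?_ ?_ ?_ hg
  · rintro _ ⟨i, t, ht, ht0, rfl⟩
    exact h.h_act i j ht ht0
  · exact ⟨1, one_mem _, one_ne_zero, fun u _ => by simp⟩
  · rintro a b _ _ ⟨c, hcK, hc, h1⟩ ⟨d, hdK, hd, h2⟩
    refine ⟨c * d, mul_mem hcK hdK, mul_ne_zero hc hd, fun u hu => ?_⟩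
    calc a * b * x j u * (a * b)⁻¹ = a * (b * x j u * b⁻¹) * a⁻¹ := by group
      _ = _ := by rw [h2 u hu, h1 _ (mul_mem hdK hu), mul_assoc]
  · rintro a _ ⟨c, hcK, hc, h1⟩
    refine ⟨c⁻¹, inv_mem hcK, inv_ne_zero hc, fun u hu => ?_⟩
    have h2 := h1 (c⁻¹ * u) (mul_mem (inv_mem hcK) hu)
    rw [mul_inv_cancel_left₀ hc] at h2
    rw [← h2]
    group

/-- `n_i(v)` normalizes `T` -/
lemma nn_conj_T (j : ι) {v : F} (hv : v ∈ K j) (hv0 : v ≠ 0) {g : L} (hg : g ∈ TT C K x) :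
    nn C.neg x j v * g * (nn C.neg x j v)⁻¹ ∈ TT C K x := by
  refine closure_induction (p := fun g _ => nn C.neg x j v * g * (nn C.neg x j v)⁻¹ ∈ TT C K x)
    ?_ ?_ ?_ ?_ hg
  · rintro _ ⟨i, t, ht, ht0, rfl⟩
    obtain ⟨φ, hφ, hφ0, -, h1⟩ := h.nn_act j i hv hv0
    have e1 : nn C.neg x j v * (nn C.neg x i t * (nn C.neg x i 1)⁻¹) * (nn C.neg x j v)⁻¹ =
        (nn C.neg x j v * nn C.neg x i t * (nn C.neg x j v)⁻¹) *
        (nn C.neg x j v * nn C.neg x i 1 * (nn C.neg x j v)⁻¹)⁻¹ := by group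
    have hk : ∀ u, u ∈ K i → φ u ∈ K (C.s j i) := fun u hu => by rw [h.K_s]; exact hφ u hu
    rw [e1, h1 t ht ht0, h1 1 (one_mem _) one_ne_zero, h.nn_inv _ (hk 1 (one_mem _))]
    exact h.nn_nn (hk t ht) (hφ0 t ht ht0) (neg_mem (hk 1 (one_mem _)))
      (neg_ne_zero.2 (hφ0 1 (one_mem _) one_ne_zero))
  · rw [mul_one, mul_inv_cancel]
    exact one_mem _
  · intro a b _ _ h1 h2
    have e1 : nn C.neg x j v * (a * b) * (nn C.neg x j v)⁻¹ =
        (nn C.neg x j v * a * (nn C.neg x j v)⁻¹) * (nn C.neg x j v * b * (nn C.neg x j v)⁻¹) := by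
      group
    rw [e1]
    exact mul_mem h1 h2
  · intro a _ h1
    have e1 : nn C.neg x j v * a⁻¹ * (nn C.neg x j v)⁻¹ =
        (nn C.neg x j v * a * (nn C.neg x j v)⁻¹)⁻¹ := by group
    rw [e1]
    exact inv_mem h1

lemma nl_conj_T (l : List ι) {g : L} (hg : g ∈ TT C K x) :
    nl C x l * g * (nl C x l)⁻¹ ∈ TT C K x := by
  induction l with
  | nil => simpa [nl_nil] using hg
  | cons i l ih =>
    rw [nl_cons]
    have e1 : nn C.neg x i 1 * nl C x l * g * (nn C.neg x i 1 * nl C x l)⁻¹ =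
        nn C.neg x i 1 * (nl C x l * g * (nl C x l)⁻¹) * (nn C.neg x i 1)⁻¹ := by group
    rw [e1]
    exact h.nn_conj_T i (one_mem _) one_ne_zero ih

/-- the action of `nl l` on the root elements -/
lemma nl_act (l : List ι) (j : ι) : ∃ φ : F → F,
    (∀ u, u ∈ K j → φ u ∈ K j) ∧ (∀ u, u ∈ K j → u ≠ 0 → φ u ≠ 0) ∧
    (∀ u, u ∈ K j → nl C x l * x j u * (nl C x l)⁻¹ = x (wl C l j) (φ u)) ∧
    (∀ u, u ∈ K j → u ≠ 0 → nl C x l * nn C.neg x j u * (nl C x l)⁻¹ =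
      nn C.neg x (wl C l j) (φ u)) := by
  induction l with
  | nil =>
    exact ⟨id, fun u hu => hu, fun u _ hu => hu, fun u _ => by simp [nl_nil, wl_nil],
      fun u _ _ => by simp [nl_nil, wl_nil]⟩
  | cons i l ih =>
    obtain ⟨φ, hφ, hφ0, h1, h1'⟩ := ih
    obtain ⟨ψ, hψ, hψ0, h2, h2'⟩ := h.nn_act i (wl C l j) (one_mem (K i)) one_ne_zero
    rw [h.K_wl] at hψ hψ0 h2 h2'
    refine ⟨fun u => ψ (φ u), fun u hu => hψ _ (hφ u hu),
      fun u hu hu0 => hψ0 _ (hφ u hu) (hφ0 u hu hu0), fun u hu => ?_, fun u hu hu0 => ?_⟩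
    · have e1 : nl C x (i :: l) * x j u * (nl C x (i :: l))⁻¹ =
          nn C.neg x i 1 * (nl C x l * x j u * (nl C x l)⁻¹) * (nn C.neg x i 1)⁻¹ := by
        rw [nl_cons]; group
      rw [e1, h1 u hu, h2 _ (hφ u hu), wl_cons]
    · have e1 : nl C x (i :: l) * nn C.neg x j u * (nl C x (i :: l))⁻¹ =
          nn C.neg x i 1 * (nl C x l * nn C.neg x j u * (nl C x l)⁻¹) * (nn C.neg x i 1)⁻¹ := by
        rw [nl_cons]; group
      rw [e1, h1' u hu hu0, h2' _ (hφ u hu) (hφ0 u hu hu0), wl_cons]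

omit h in
lemma SS_le : ∀ s ∈ SS C x, s ∈ NN C K x := fun _ hs =>
  (le_sup_left : _ ≤ NN C K x) (subset_closure hs)

omit h in
lemma TT_le : TT C K x ≤ NN C K x := le_sup_right

omit h in
lemma nl_mem {l : List ι} (hl : ∀ i ∈ l, C.simp i) : nl C x l ∈ NN C K x := by
  induction l with
  | nil => exact one_mem _
  | cons i l ih =>
    rw [nl_cons]
    exact mul_mem ((le_sup_left : _ ≤ NN C K x) (subset_closure ⟨i, hl i (by simp), rfl⟩))
      (ih fun k hk => hl k (by simp [hk]))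

/-- the elements of `N` -/
lemma mem_NN {g : L} (hg : g ∈ NN C K x) : ∃ t ∈ TT C K x, ∃ l : List ι, (∀ i ∈ l, C.simp i) ∧
    g = t * nl C x l := by
  have e0 : NN C K x = closure (SS C x ∪ (TT C K x : Set L)) := by
    rw [NN, Subgroup.closure_union, Subgroup.closure_eq]
  rw [e0] at hg
  refine closure_induction_left (p := fun g _ => ∃ t ∈ TT C K x, ∃ l : List ι,
    (∀ i ∈ l, C.simp i) ∧ g = t * nl C x l) ⟨1, one_mem _, [], by simp, by simp [nl_nil]⟩ ?_ ?_ hg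
  · rintro s hs y _ ⟨t, ht, l, hl, rfl⟩
    rcases hs with ⟨i, hi, rfl⟩ | hs
    · refine ⟨nn C.neg x i 1 * t * (nn C.neg x i 1)⁻¹,
        h.nn_conj_T i (one_mem _) one_ne_zero ht, i :: l, ?_, ?_⟩
      · intro k hk
        rcases List.mem_cons.1 hk with rfl | hk
        · exact hi
        · exact hl k hk
      · rw [nl_cons]; group
    · exact ⟨s * t, mul_mem hs ht, l, hl, by rw [mul_assoc]⟩
  · rintro s hs y _ ⟨t, ht, l, hl, rfl⟩
    rcases hs with ⟨i, hi, rfl⟩ | hs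
    · have h1 : (nn C.neg x i 1)⁻¹ * (nn C.neg x i 1)⁻¹ ∈ TT C K x := by
        rw [← mul_inv_rev]
        exact inv_mem (h.nn_nn (one_mem _) one_ne_zero (one_mem _) one_ne_zero)
      have h2 := h.nn_conj_T i (one_mem _) one_ne_zero ht
      refine ⟨(nn C.neg x i 1)⁻¹ * (nn C.neg x i 1)⁻¹ *
        (nn C.neg x i 1 * t * (nn C.neg x i 1)⁻¹), mul_mem h1 h2, i :: l, ?_, ?_⟩
      · intro k hk
        rcases List.mem_cons.1 hk with rfl | hk
        · exact hi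
        · exact hl k hk
      · rw [nl_cons]; group
    · exact ⟨s⁻¹ * t, mul_mem (inv_mem hs) ht, l, hl, by rw [mul_assoc]⟩

/-- the deletion argument -/
theorem nl_mem_T : ∀ (k : ℕ) (l : List ι), l.length = k → (∀ i ∈ l, C.simp i) →
    (∀ j, 0 < C.ht j → 0 < C.ht (wl C l j)) → nl C x l ∈ TT C K x := by
  intro k
  induction k using Nat.strong_induction_on with
  | _ k ih =>
    intro l hlen hl hpos
    rcases l.eq_nil_or_concat' with rfl | ⟨l', a, rfl⟩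
    · exact one_mem _
    have ha : C.simp a := hl a (by simp)
    have hl' : ∀ i ∈ l', C.simp i := fun i hi => hl i (by simp [hi])
    have h1 : C.ht (wl C l' a) < 0 := by
      have h2 := hpos a (C.simp_pos a ha)
      rw [wl_append, wl_cons, wl_nil, C.s_self, wl_neg, C.ht_neg] at h2
      omega
    -- the place
    have h2 : ∀ m : List ι, (∀ i ∈ m, C.simp i) → C.ht (wl C m a) < 0 →
        ∃ (A : List ι) (i : ι) (D : List ι), m = A ++ i :: D ∧ wl C D a = i := by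
      intro m
      induction m with
      | nil =>
        intro _ h3
        rw [wl_nil] at h3
        have := C.simp_pos a ha
        omega
      | cons b m ihm =>
        intro hm h3
        by_cases h4 : C.ht (wl C m a) < 0
        · obtain ⟨A, i, D, rfl, h5⟩ := ihm (fun i hi => hm i (by simp [hi])) h4
          exact ⟨b :: A, i, D, by simp, h5⟩
        · refine ⟨[], b, m, rfl, ?_⟩
          by_contra hne
          have h5 := C.ht_ne (wl C m a)
          have h6 := C.s_pos b (wl C m a) (hm b (by simp)) (by omega) hne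
          rw [wl_cons] at h3
          omega
    obtain ⟨A, i, D, rfl, hD⟩ := h2 l' hl' h1
    have hA : ∀ j ∈ A, C.simp j := fun j hj => hl j (by simp [hj])
    have hDs : ∀ j ∈ D, C.simp j := fun j hj => hl j (by simp [hj])
    obtain ⟨φ, hφ, hφ0, -, h3⟩ := h.nl_act D a
    have h4 := h3 1 (one_mem _) one_ne_zero
    have hK : K i = K a := by rw [← hD, h.K_wl]
    rw [hD] at h4
    have e1 : nl C x (A ++ i :: D ++ [a]) =
        (nl C x A * (nn C.neg x i 1 * nn C.neg x i (φ 1)) * (nl C x A)⁻¹) * nl C x (A ++ D) := by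
      rw [← h4, nl_append, nl_append, nl_append, nl_cons, nl_cons, nl_nil]
      group
    have hw : ∀ j, wl C (A ++ i :: D ++ [a]) j = wl C (A ++ D) j := by
      intro j
      rw [wl_append, wl_append, wl_append, wl_cons, wl_cons, wl_nil, wl_s D, hD, C.s_s]
    rw [e1]
    refine mul_mem (h.nl_conj_T A (h.nn_nn (one_mem _) one_ne_zero (hK ▸ hφ 1 (one_mem _))
      (hφ0 1 (one_mem _) one_ne_zero))) (ih (A ++ D).length ?_ _ rfl ?_ ?_)
    · rw [← hlen]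
      simp
    · intro j hj
      rcases List.mem_append.1 hj with h5 | h5
      · exact hA j h5
      · exact hDs j h5
    · intro j hj
      rw [← hw]
      exact hpos j hj

omit h in
lemma x_mem_UU {i : ι} (hi : 0 < C.ht i) {t : F} (ht : t ∈ K i) : x i t ∈ UU C K x :=
  subset_closure ⟨i, t, hi, ht, rfl⟩

omit h in
lemma x_mem_UM {i : ι} (hi : C.ht i < 0) {t : F} (ht : t ∈ K i) : x i t ∈ UM C K x :=
  subset_closure ⟨i, t, hi, ht, rfl⟩

omit h in
lemma x_mem_gr {p : ι → Prop} {i : ι} (hi : p i) {t : F} (ht : t ∈ K i) : x i t ∈ gr K x p :=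
  subset_closure ⟨i, t, hi, ht, rfl⟩

lemma x_not_mem {i : ι} (hi : C.ht i < 0) {t : F} (htK : t ∈ K i) (ht : x i t ∈ UU C K x) :
    t = 0 := by
  have h1 : x i t ∈ UU C K x ⊓ UM C K x := ⟨ht, x_mem_UM hi htK⟩
  rw [show UU C K x ⊓ UM C K x = ⊥ from h.opp, mem_bot] at h1
  exact h.inj i t htK h1

/-- `T` normalizes `gr x p` -/
lemma T_conj_gr {p : ι → Prop} {t : L} (ht : t ∈ TT C K x) {u : L} (hu : u ∈ gr K x p) :
    t * u * t⁻¹ ∈ gr K x p := by
  refine closure_induction (p := fun u _ => t * u * t⁻¹ ∈ gr K x p) ?_ ?_ ?_ ?_ hu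
  · rintro _ ⟨i, v, hi, hv, rfl⟩
    obtain ⟨c, hc, -, h1⟩ := h.T_act ht i
    rw [h1 v hv]
    exact x_mem_gr hi (mul_mem hc hv)
  · simp
  · intro a b _ _ h1 h2
    have e1 : t * (a * b) * t⁻¹ = (t * a * t⁻¹) * (t * b * t⁻¹) := by group
    rw [e1]
    exact mul_mem h1 h2
  · intro a _ h1
    have e1 : t * a⁻¹ * t⁻¹ = (t * a * t⁻¹)⁻¹ := by group
    rw [e1]
    exact inv_mem h1

/-- `nl l` maps `gr x p` to `gr x q` -/
lemma nl_conj_gr {p q : ι → Prop} {l : List ι} (hpq : ∀ i, p i → q (wl C l i)) {u : L}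
    (hu : u ∈ gr K x p) : nl C x l * u * (nl C x l)⁻¹ ∈ gr K x q := by
  refine closure_induction (p := fun u _ => nl C x l * u * (nl C x l)⁻¹ ∈ gr K x q) ?_ ?_ ?_ ?_ hu
  · rintro _ ⟨i, v, hi, hv, rfl⟩
    obtain ⟨φ, hφ, -, h1, -⟩ := h.nl_act l i
    rw [h1 v hv]
    exact x_mem_gr (hpq i hi) (by rw [h.K_wl]; exact hφ v hv)
  · simp
  · intro a b _ _ h1 h2
    have e1 : nl C x l * (a * b) * (nl C x l)⁻¹ =
        (nl C x l * a * (nl C x l)⁻¹) * (nl C x l * b * (nl C x l)⁻¹) := by group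
    rw [e1]
    exact mul_mem h1 h2
  · intro a _ h1
    have e1 : nl C x l * a⁻¹ * (nl C x l)⁻¹ = (nl C x l * a * (nl C x l)⁻¹)⁻¹ := by group
    rw [e1]
    exact inv_mem h1

/-- the elements of `B` -/
lemma mem_BB {g : L} (hg : g ∈ BB C K x) : ∃ u ∈ UU C K x, ∃ t ∈ TT C K x, g = u * t := by
  have e0 : BB C K x = closure ((UU C K x : Set L) ∪ (TT C K x : Set L)) := by
    rw [BB, Subgroup.closure_union, Subgroup.closure_eq, Subgroup.closure_eq]
  rw [e0] at hg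
  refine closure_induction_left (p := fun g _ => ∃ u ∈ UU C K x, ∃ t ∈ TT C K x, g = u * t)
    ⟨1, one_mem _, 1, one_mem _, by simp⟩ ?_ ?_ hg
  · rintro s hs y _ ⟨u, hu, t, ht, rfl⟩
    rcases hs with hs | hs
    · exact ⟨s * u, mul_mem hs hu, t, ht, by rw [mul_assoc]⟩
    · exact ⟨s * u * s⁻¹, h.T_conj_gr hs hu, s * t, mul_mem hs ht, by group⟩
  · rintro s hs y _ ⟨u, hu, t, ht, rfl⟩
    rcases hs with hs | hs
    · exact ⟨s⁻¹ * u, mul_mem (inv_mem hs) hu, t, ht, by rw [mul_assoc]⟩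
    · exact ⟨s⁻¹ * u * s⁻¹⁻¹, h.T_conj_gr (inv_mem hs) hu, s⁻¹ * t, mul_mem (inv_mem hs) ht,
        by group⟩

omit h in
lemma UU_le : UU C K x ≤ BB C K x := le_sup_left

omit h in
lemma TT_le_BB : TT C K x ≤ BB C K x := le_sup_right

/-- `U` is normal in `B` -/
lemma B_conj_U {g : L} (hg : g ∈ BB C K x) {u : L} (hu : u ∈ UU C K x) :
    g * u * g⁻¹ ∈ UU C K x := by
  obtain ⟨v, hv, t, ht, rfl⟩ := h.mem_BB hg
  have e1 : v * t * u * (v * t)⁻¹ = v * (t * u * t⁻¹) * v⁻¹ := by group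
  rw [e1]
  exact mul_mem (mul_mem hv (h.T_conj_gr ht hu)) (inv_mem hv)

/-- **`B ∩ N = T`** -/
theorem inf_eq : BB C K x ⊓ NN C K x = TT C K x := by
  refine le_antisymm ?_ (le_inf TT_le_BB TT_le)
  rintro g ⟨hgB, hgN⟩
  obtain ⟨t, ht, l, hl, rfl⟩ := h.mem_NN hgN
  refine mul_mem ht ?_
  have hB : nl C x l ∈ BB C K x := by
    have h1 := mul_mem (inv_mem (TT_le_BB ht)) hgB
    rwa [inv_mul_cancel_left] at h1
  refine h.nl_mem_T _ l rfl hl fun j hj => ?_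
  by_contra hcon
  have h1 := C.ht_ne (wl C l j)
  obtain ⟨φ, hφ, hφ0, h2, -⟩ := h.nl_act l j
  have h3 := h.B_conj_U hB (x_mem_UU (x := x) hj (one_mem (K j)))
  rw [h2 1 (one_mem _)] at h3
  exact hφ0 1 (one_mem _) one_ne_zero
    (h.x_not_mem (by omega) (by rw [h.K_wl]; exact hφ 1 (one_mem _)) h3)

end TS

end

end Vale.Agent.P240.R2.H945.W
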