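import Vale.Agent.P240.R2.H945.W.Tw
import Vale.Agent.P240.R2.H387.TW5

/-!
The twisted groups `³D₄(q)` and `²E₆(q)`: main theorems.
-/

set_option autoImplicit false

namespace Vale.Agent.P240.R2.H945

open Subgroup Vale.Agent.P240.K Vale.Agent.P240.H195 CartanMatrix
open Vale.Agent.P240.R2.H165.XC

universe u v

section
variable {n : ℕ} {A : Matrix (Fin n) (Fin n) ℤ} {m : ℕ} {F : Type} [Field F] {L : Type u} [Group L]

/-- **rigid** -/
theorem IsTw.rigid [Finite F] [Finite L] (h : IsTw A m F L) (hA : Conn A) (hs : IsSimpleGroup L)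
    (hab : ∃ x y : L, x * y ≠ y * x) (r : ℕ) [Fact r.Prime] [CharP F r] : RigidLie r L := by
  obtain ⟨ι, _, C, e, K₀, K, x, hd⟩ := h.data hA hab
  exact H387.TW5.rigidLie hd.ts hs (centre_of_nonabelian hs hab) r

/-- the groups `³D₄(q)` -/
theorem Is3D4.main [Finite F] [Finite L] (h : Is3D4 F L) (hs : IsSimpleGroup L)
    (hab : ∃ x y : L, x * y ≠ y * x) (r : ℕ) [Fact r.Prime] [CharP F r] :
    LieType r L ∧ RigidLie r L :=
  ⟨IsTw.lie h G2_conn hs hab r, IsTw.rigid h G2_conn hs hab r⟩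

/-- the groups `²E₆(q)` -/
theorem Is2E6.main [Finite F] [Finite L] (h : Is2E6 F L) (hs : IsSimpleGroup L)
    (hab : ∃ x y : L, x * y ≠ y * x) (r : ℕ) [Fact r.Prime] [CharP F r] :
    LieType r L ∧ RigidLie r L :=
  ⟨IsTw.lie h F4_conn hs hab r, IsTw.rigid h F4_conn hs hab r⟩

/-- **the groups `³D₄(q)`** if the characteristic of `F` is `p`, `l` or the characteristic of `𝕜` -/
theorem Is3D4.good [Finite F] [Finite L] {p : ℕ} [Fact p.Prime]
    (h : Is3D4 F L) (hs : IsSimpleGroup L) (hab : ∃ x y : L, x * y ≠ y * x) {𝕜 : Type v}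
    [Field 𝕜] {l : ℕ} (hF : ((p : ℕ) : F) = 0 ∨ ((l : ℕ) : F) = 0 ∧ l.Prime ∨
      ∃ r : ℕ, r.Prime ∧ (r : F) = 0 ∧ (r : 𝕜) = 0) : GoodFactor 𝕜 p l L :=
  good_of_lie (fun r _ _ => h.main hs hab r) hF

/-- **the groups `²E₆(q)`** if the characteristic of `F` is `p`, `l` or the characteristic of `𝕜` -/
theorem Is2E6.good [Finite F] [Finite L] {p : ℕ} [Fact p.Prime]
    (h : Is2E6 F L) (hs : IsSimpleGroup L) (hab : ∃ x y : L, x * y ≠ y * x) {𝕜 : Type v}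
    [Field 𝕜] {l : ℕ} (hF : ((p : ℕ) : F) = 0 ∨ ((l : ℕ) : F) = 0 ∧ l.Prime ∨
      ∃ r : ℕ, r.Prime ∧ (r : F) = 0 ∧ (r : 𝕜) = 0) : GoodFactor 𝕜 p l L :=
  good_of_lie (fun r _ _ => h.main hs hab r) hF

/-- the groups `³D₄(q)`, for every field `𝕜`, if there are few automorphisms -/
theorem Is3D4.good_of_few [Finite F] [Finite L] {p : ℕ} [hp : Fact p.Prime]
    (h : Is3D4 F L) (hs : IsSimpleGroup L) (hab : ∃ x y : L, x * y ≠ y * x)
    (hfew : ∀ r : ℕ, r.Prime → (r : F) = 0 → p ≠ r → FewAut p L) (𝕜 : Type v)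
    [Field 𝕜] (l : ℕ) : GoodFactor 𝕜 p l L := by
  obtain ⟨r, hrc⟩ := CharP.exists F
  have hr : Fact r.Prime := ⟨(CharP.char_is_prime_or_zero F r).resolve_right
    (CharP.char_ne_zero_of_finite F r)⟩
  have h1 := h.main hs hab r
  by_cases hpr : p = r
  · subst hpr
    exact Or.inr (Or.inl h1.2)
  · exact Or.inr (Or.inr (Or.inr (Or.inl ⟨r, hr.out, h1.1.autFree hr.out hp.out hpr,
      Or.inr (Or.inr (Or.inl (hfew r hr.out (CharP.cast_eq_zero F r) hpr)))⟩)))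

end

end Vale.Agent.P240.R2.H945
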