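import Vale.Agent.P240.R2.H945.W.TwS

/-!
The twisted groups `³D₄(q)` and `²E₆(q)`: diagrams, few automorphisms.
-/

set_option autoImplicit false

namespace Vale.Agent.P240.R2.H945.W

open Subgroup Vale.Agent.P240.K Vale.Agent.P240.H195 CartanMatrix
open Vale.Agent.P240.R2.H165.XC
open Vale.Agent.P240.R2.H986.X (RC nn nl wl SS)

universe u v

section
variable {n : ℕ} {A : Matrix (Fin n) (Fin n) ℤ} {m : ℕ} {F : Type} [Field F] {L : Type u} [Group L]
  {ι : Type} {C : RC ι} {e : Fin n → ι} {K₀ : Subfield F} {K : ι → Subfield F} {x : ι → F → L}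

namespace TD

lemma K_ne_top [Finite F] (h : TD A m C e K₀ K x) (hm : 2 ≤ m) : K₀ ≠ ⊤ := by
  rintro h1
  have h2 := h.card
  have h3 : Nat.card K₀ = Nat.card F := by
    rw [h1]
    exact Nat.card_congr Subfield.topEquiv.toEquiv
  rw [h3] at h2
  have h4 : 1 < Nat.card F := Finite.one_lt_card
  have h5 : Nat.card F ^ 1 < Nat.card F ^ m := Nat.pow_lt_pow_right h4 (by omega)
  rw [pow_one] at h5
  exact absurd h2 h5.ne

lemma lr (h : TD A m C e K₀ K x) (hm : 2 ≤ m) {i j : Fin n} (hne : i ≠ j) (hij : A j i = -1)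
    (hle : K (e i) ≤ K (e j)) : LR C K x (e i) (e j) := by
  refine ⟨hle, fun t u ht ht0 hu => ?_⟩
  have h1 := h.h_rel i j hne t u ht ht0 hu
  rw [if_neg (by rw [hij]; omega), hij, zpow_neg_one] at h1
  exact h1

/-- the bijection with the simple roots -/
noncomputable def eqv (h : TD A m C e K₀ K x) : Fin n ≃ {i // C.simp i} :=
  Equiv.ofBijective (fun i => ⟨e i, (h.simp _).2 ⟨i, rfl⟩⟩) (by
    constructor
    · intro i j hij
      exact h.inj (congrArg Subtype.val hij)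
    · rintro ⟨k, hk⟩
      obtain ⟨i, rfl⟩ := (h.simp k).1 hk
      exact ⟨i, rfl⟩)

/-- transport of permutations of the simple roots -/
lemma pc_of (h : TD A m C e K₀ K x)
    (hA : ∀ σ : Equiv.Perm (Fin n), (∀ i, K (e (σ i)) = K (e i)) →
      (∀ i j, A i j = 0 ↔ A (σ i) (σ j) = 0) → ∀ i, σ i = i) : PC C K := by
  intro π h1 h2
  have h3 := hA ((h.eqv.trans π).trans h.eqv.symm) ?_ ?_
  · ext i
    obtain ⟨k, rfl⟩ := h.eqv.surjective i
    have h4 := h3 k
    change h.eqv.symm (π (h.eqv k)) = k at h4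
    rw [h.eqv.symm_apply_eq] at h4
    rw [h4]
    rfl
  · intro i
    have h4 := h1 (h.eqv i)
    have h5 : e (h.eqv.symm (π (h.eqv i))) = (π (h.eqv i)).1 :=
      congrArg Subtype.val (h.eqv.apply_symm_apply (π (h.eqv i)))
    change K (e (h.eqv.symm (π (h.eqv i)))) = K (e i)
    rw [h5, h4]
    rfl
  · intro i j
    have h4 := h2 (h.eqv i) (h.eqv j)
    have h5 : ∀ i, e (h.eqv.symm (π (h.eqv i))) = (π (h.eqv i)).1 := fun i =>
      congrArg Subtype.val (h.eqv.apply_symm_apply (π (h.eqv i)))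
    change A i j = 0 ↔ A (h.eqv.symm (π (h.eqv i))) (h.eqv.symm (π (h.eqv j))) = 0
    rw [← h.pr, ← h.pr, h5, h5]
    exact h4

end TD

end

section
variable {F : Type} [Field F] {L : Type u} [Group L] {ι : Type} {C : RC ι} {e : Fin 4 → ι}
  {K₀ : Subfield F} {K : ι → Subfield F} {x : ι → F → L}

/-- `²E₆(q)`: the diagram is connected -/
theorem TD.lc4 (h : TD F₄ 2 C e K₀ K x) : LC C K x := by
  refine ⟨e 2, (h.simp _).2 ⟨2, rfl⟩, h.K4_2, fun p p2 hst => ?_⟩
  have hs : ∀ k, C.simp (e k) := fun k => (h.simp _).2 ⟨k, rfl⟩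
  have p3 : p (e 3) := hst _ _ (hs 3) (hs 2) p2 (h.lr le_rfl (by decide) (by decide)
    (by rw [h.K4_2, h.K4_3]))
  have p1 : p (e 1) := hst _ _ (hs 1) (hs 2) p2 (h.lr le_rfl (by decide) (by decide)
    (by rw [h.K4_2]; exact le_top))
  have p0 : p (e 0) := hst _ _ (hs 0) (hs 1) p1 (h.lr le_rfl (by decide) (by decide)
    (by rw [h.K4_1, h.K4_0]))
  intro j hj
  rcases h.simp4 hj with rfl | rfl | rfl | rfl
  exacts [p0, p1, p2, p3]

/-- `²E₆(q)`: no symmetries -/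
theorem TD.pc4 [Finite F] (h : TD F₄ 2 C e K₀ K x) : PC C K := by
  have htop := h.K_ne_top le_rfl
  refine h.pc_of fun σ h1 h2 => ?_
  have hK : ∀ k : Fin 4, K (e k) = ⊤ ↔ (k = 2 ∨ k = 3) := by
    intro k
    fin_cases k
    · simp only [Fin.zero_eta, h.K4_0, htop, false_iff]
      decide
    · simp only [Fin.mk_one, h.K4_1, htop, false_iff]
      decide
    · simp only [Fin.reduceFinMk, h.K4_2, true_iff]
      decide
    · simp only [Fin.reduceFinMk, h.K4_3, true_iff]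
      decide
  have h3 : ∀ k : Fin 4, (σ k = 2 ∨ σ k = 3) ↔ (k = 2 ∨ k = 3) := by
    intro k
    rw [← hK, ← hK, h1]
  have h4 : ∀ k : Fin 4, (k = 0 ∨ k = 1) ∨ (k = 2 ∨ k = 3) := by decide
  have h5 : ∀ k l : Fin 4, ¬ (k = 2 ∨ k = 3) → (l = 2 ∨ l = 3) → F₄ k l ≠ 0 → k = 1 ∧ l = 2 := by
    intro k l
    fin_cases k <;> fin_cases l <;> simp [F₄]
  have h6 := h5 (σ 1) (σ 2) (by rw [h3]; decide) (by rw [h3]; decide)
    (fun h0 => absurd ((h2 1 2).2 h0) (by decide))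
  have h7 : σ 0 = 0 := by
    have h8 : ¬ (σ 0 = 2 ∨ σ 0 = 3) := by rw [h3]; decide
    have h9 : σ 0 ≠ 1 := fun h0 => absurd (σ.injective (h0.trans h6.1.symm)) (by decide)
    rcases h4 (σ 0) with (h0 | h0) | h0
    exacts [h0, absurd h0 h9, absurd h0 h8]
  have h8 : σ 3 = 3 := by
    have h9 : σ 3 ≠ 2 := fun h0 => absurd (σ.injective (h0.trans h6.2.symm)) (by decide)
    rcases (h3 3).2 (by decide) with h0 | h0
    exacts [absurd h0 h9, h0]
  intro i
  fin_cases i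
  exacts [h7, h6.1, h6.2, h8]

end

section
variable {F : Type} [Field F] {L : Type u} [Group L] {ι : Type} {C : RC ι} {e : Fin 2 → ι}
  {K₀ : Subfield F} {K : ι → Subfield F} {x : ι → F → L}

lemma TD.simp2 (h : TD G₂ 3 C e K₀ K x) {i : ι} (hi : C.simp i) : i = e 0 ∨ i = e 1 := by
  obtain ⟨k, rfl⟩ := (h.simp i).1 hi
  fin_cases k <;> simp

/-- `³D₄(q)`: the diagram is connected -/
theorem TD.lc2 (h : TD G₂ 3 C e K₀ K x) : LC C K x := by
  have k1 : K (e 1) = ⊤ := h.K_short 1 0 (by decide)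
  refine ⟨e 1, (h.simp _).2 ⟨1, rfl⟩, k1, fun p p1 hst => ?_⟩
  have hs : ∀ k, C.simp (e k) := fun k => (h.simp _).2 ⟨k, rfl⟩
  have p0 : p (e 0) := hst _ _ (hs 0) (hs 1) p1 (h.lr (by norm_num) (by decide) (by decide)
    (by rw [k1]; exact le_top))
  intro j hj
  rcases h.simp2 hj with rfl | rfl
  exacts [p0, p1]

/-- `³D₄(q)`: no symmetries -/
theorem TD.pc2 [Finite F] (h : TD G₂ 3 C e K₀ K x) : PC C K := by
  have htop := h.K_ne_top (by norm_num)
  have k1 : K (e 1) = ⊤ := h.K_short 1 0 (by decide)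
  have k0 : K (e 0) = K₀ := h.K_long 1 0 (by decide)
  refine h.pc_of fun σ h1 h2 => ?_
  have h3 : ∀ k : Fin 2, k = 0 ∨ k = 1 := by decide
  have h4 : σ 0 = 0 := by
    rcases h3 (σ 0) with h5 | h5
    · exact h5
    · have h6 := h1 0
      rw [h5, k1, k0] at h6
      exact absurd h6.symm htop
  intro i
  rcases h3 i with rfl | rfl
  · exact h4
  · rcases h3 (σ 1) with h5 | h5
    · exact absurd (σ.injective (h5.trans h4.symm)) (by decide)
    · exact h5

/-- `³D₄(q)`: all characters -/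
theorem TD.dc2 [Finite F] (h : TD G₂ 3 C e K₀ K x) : DC C K x 1 := by
  have k1 : K (e 1) = ⊤ := h.K_short 1 0 (by decide)
  have k0 : K (e 0) = K₀ := h.K_long 1 0 (by decide)
  have hij : G₂ 0 1 = -(3 : ℕ) := by decide
  have hji : G₂ 1 0 = -1 := by decide
  obtain ⟨N, hN, hN3, hN1⟩ := H164.TW.exists_norm h.card
  subst k0
  refine H164.TW.surT_two h.ts (a := e 1) (b := e 0) (fun i hi => (h.simp2 hi).symm) k1 N hN3 hN1
    ?_ ?_
  · intro t ht ht0 u
    exact h.h_long hij (by decide) hji (by decide) t u ht0 ht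
  · intro t ht0 u hu
    rw [hN]
    exact h.h_short hij (by decide) t u ht0 hu

end

section
variable {F : Type} [Field F] [Finite F] {L : Type u} [Group L] [Finite L]

/-- **`³D₄(q)`: few automorphisms** -/
theorem few3D4 (T5 : StmtT5.{u}) (h : Is3D4 F L) (hs : IsSimpleGroup L)
    (hab : ∃ x y : L, x * y ≠ y * x) {r : ℕ} [Fact r.Prime] [CharP F r] {p : ℕ} (hp : p.Prime)
    (hpr : p ≠ r) : FewAut p L := by
  obtain ⟨ι, _, C, e, K₀, K, x, hd⟩ := h.data G2_conn hab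
  exact T5 ι F L r C K x hd.ts (centre_of_nonabelian hs hab) hd.lc2 hd.pc2 1 hd.dc2 p hp hpr
    (Nat.coprime_one_right p) (by rw [Nat.totient_one]; exact Nat.coprime_one_right p)

/-- **`²E₆(q)`: few automorphisms** -/
theorem few2E6 (T5 : StmtT5.{u}) (h : Is2E6 F L) (hs : IsSimpleGroup L)
    (hab : ∃ x y : L, x * y ≠ y * x) {r : ℕ} [Fact r.Prime] [CharP F r] {p : ℕ} (hp : p.Prime)
    (hpr : p ≠ r) (h3 : 5 ≤ p ∨ ∃ q : ℕ, Nat.card F = q ^ 2 ∧ ¬ 3 ∣ q + 1) : FewAut p L := by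
  obtain ⟨ι, _, C, e, K₀, K, x, hd⟩ := h.data F4_conn hab
  rcases h3 with h3 | ⟨q, hq, h3⟩
  · have h4 : Nat.Coprime p 3 := (Nat.coprime_primes hp Nat.prime_three).2 (by omega)
    have h5 : Nat.Coprime p 2 := (Nat.coprime_primes hp Nat.prime_two).2 (by omega)
    exact T5 ι F L r C K x hd.ts (centre_of_nonabelian hs hab) hd.lc4 hd.pc4 3 hd.dc3 p hp hpr
      h4 (by rw [show Nat.totient 3 = 2 by decide]; exact h5)
  · have hq' : q = Nat.card K₀ := by
      have h4 := hd.card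
      rw [hq] at h4
      exact Nat.pow_left_injective (by norm_num) h4
    subst hq'
    exact T5 ι F L r C K x hd.ts (centre_of_nonabelian hs hab) hd.lc4 hd.pc4 1 (hd.dc1 h3) p hp
      hpr (Nat.coprime_one_right p) (by rw [Nat.totient_one]; exact Nat.coprime_one_right p)

end

end Vale.Agent.P240.R2.H945.W
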