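import Vale.Agent.P240.R2.H945.W.Tw
import Vale.Agent.P240.R2.H986.W.Stm
import Vale.Agent.P240.R2.H164.TW2

/-!
The twisted groups `³D₄(q)` and `²E₆(q)`: tori and diagrams.
-/

set_option autoImplicit false

namespace Vale.Agent.P240.R2.H945.W

open Subgroup Vale.Agent.P240.K Vale.Agent.P240.H195 CartanMatrix
open Vale.Agent.P240.R2.H986.X (RC nn nl wl SS)

universe u v

section
variable {F : Type*} [Field F] [Finite F] {K₀ : Subfield F}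

lemma pow_q (s : F) (hs : s ∈ K₀) : s ^ Nat.card K₀ = s := by
  have := Fintype.ofFinite K₀
  have h1 : (⟨s, hs⟩ : K₀) ^ Nat.card K₀ = ⟨s, hs⟩ := by
    rw [Nat.card_eq_fintype_card]
    exact FiniteField.pow_card _
  exact congrArg Subtype.val h1

lemma mem_of_pow {y : F} (hy : y ^ Nat.card K₀ = y) : y ∈ K₀ := by
  classical
  have := Fintype.ofFinite F
  have := Fintype.ofFinite K₀
  set q := Nat.card K₀ with hq
  have hq1 : 1 < q := Finite.one_lt_card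
  have hpoly : (Polynomial.X ^ q - Polynomial.X : Polynomial F) ≠ 0 :=
    FiniteField.X_pow_card_sub_X_ne_zero F hq1
  have hsub : (Finset.univ.image fun s : K₀ => (s : F)) ⊆
      (Polynomial.X ^ q - Polynomial.X : Polynomial F).roots.toFinset := by
    intro z hz
    obtain ⟨s, -, rfl⟩ := Finset.mem_image.1 hz
    rw [Multiset.mem_toFinset, Polynomial.mem_roots hpoly, Polynomial.IsRoot.def,
      Polynomial.eval_sub, Polynomial.eval_pow, Polynomial.eval_X, sub_eq_zero]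
    exact pow_q (s : F) s.2
  have hcard : (Polynomial.X ^ q - Polynomial.X : Polynomial F).roots.toFinset.card ≤
      (Finset.univ.image fun s : K₀ => (s : F)).card := by
    rw [Finset.card_image_of_injective _ Subtype.val_injective, Finset.card_univ,
      ← Nat.card_eq_fintype_card, ← hq]
    refine (Multiset.toFinset_card_le _).trans ((Polynomial.card_roots' _).trans ?_)
    rw [FiniteField.X_pow_card_sub_X_natDegree_eq F hq1]
  have heq := Finset.eq_of_subset_of_card_le hsub hcard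
  have hy' : y ∈ (Polynomial.X ^ q - Polynomial.X : Polynomial F).roots.toFinset := by
    rw [Multiset.mem_toFinset, Polynomial.mem_roots hpoly, Polynomial.IsRoot.def,
      Polynomial.eval_sub, Polynomial.eval_pow, Polynomial.eval_X, sub_eq_zero, hy]
  rw [← heq] at hy'
  obtain ⟨s, -, rfl⟩ := Finset.mem_image.1 hy'
  exact s.2

lemma div_two (hc : Nat.card F = Nat.card K₀ ^ 2) :
    (Nat.card F - 1) / (Nat.card K₀ - 1) = Nat.card K₀ + 1 := by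
  have hq1 : 1 < Nat.card K₀ := Finite.one_lt_card
  obtain ⟨k, hk⟩ : ∃ k, Nat.card K₀ = k + 2 := ⟨Nat.card K₀ - 2, by omega⟩
  have e1 : Nat.card K₀ ^ 2 - 1 = (Nat.card K₀ - 1) * (Nat.card K₀ + 1) := by
    rw [hk]
    have : k + 2 - 1 = k + 1 := by omega
    rw [this]
    have h2 : (k + 2) ^ 2 = (k + 1) * (k + 2 + 1) + 1 := by ring
    omega
  rw [hc, e1, Nat.mul_div_cancel_left _ (by omega)]

lemma pow_qq (hc : Nat.card F = Nat.card K₀ ^ 2) (t : F) :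
    (t ^ Nat.card K₀) ^ Nat.card K₀ = t := by
  have := Fintype.ofFinite F
  rw [← pow_mul, ← pow_two, ← hc, Nat.card_eq_fintype_card]
  exact FiniteField.pow_card t

lemma norm_mem (hc : Nat.card F = Nat.card K₀ ^ 2) (t : F) : t * t ^ Nat.card K₀ ∈ K₀ := by
  apply mem_of_pow
  rw [mul_pow, pow_qq hc, mul_comm]

end

section
variable {ι : Type*} {F : Type*} [Field F] {L : Type*} [Group L]

/-- `g x_j(u) g⁻¹ = x_j(c u)` -/
def Ac (K : ι → Subfield F) (x : ι → F → L) (j : ι) (g : L) (c : F) : Prop :=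
  c ∈ K j ∧ ∀ u ∈ K j, g * x j u * g⁻¹ = x j (c * u)

lemma Ac.mul {K : ι → Subfield F} {x : ι → F → L} {j : ι} {g g' : L} {c c' : F}
    (h : Ac K x j g c) (h' : Ac K x j g' c') : Ac K x j (g * g') (c * c') := by
  refine ⟨mul_mem h.1 h'.1, fun u hu => ?_⟩
  have e1 : g * g' * x j u * (g * g')⁻¹ = g * (g' * x j u * g'⁻¹) * g⁻¹ := by group
  rw [e1, h'.2 u hu, h.2 _ (mul_mem h'.1 hu), mul_assoc]

end

section
variable {F : Type} [Field F] {L : Type u} [Group L] {ι : Type} {C : RC ι} {e : Fin 4 → ι}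
  {K₀ : Subfield F} {K : ι → Subfield F} {x : ι → F → L}

namespace TD

lemma K4_0 (h : TD F₄ 2 C e K₀ K x) : K (e 0) = K₀ := by
  rw [h.K_eq 0 1 (by decide) (by decide)]
  exact h.K_long 2 1 (by decide)

lemma K4_1 (h : TD F₄ 2 C e K₀ K x) : K (e 1) = K₀ := h.K_long 2 1 (by decide)

lemma K4_2 (h : TD F₄ 2 C e K₀ K x) : K (e 2) = ⊤ := h.K_short 2 1 (by decide)

lemma K4_3 (h : TD F₄ 2 C e K₀ K x) : K (e 3) = ⊤ := by
  rw [h.K_eq 3 2 (by decide) (by decide)]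
  exact h.K4_2

lemma ac_self (h : TD F₄ 2 C e K₀ K x) (i : Fin 4) {t : F} (ht : t ∈ K (e i)) (ht0 : t ≠ 0) :
    Ac K x (e i) (hh C x (e i) t) (t * t) :=
  ⟨mul_mem ht ht, fun _ hu => h.ts.h_self (e i) ht ht0 hu⟩

lemma ac_zero (h : TD F₄ 2 C e K₀ K x) {i j : Fin 4} (hne : i ≠ j) (hij : F₄ j i = 0) {t : F}
    (ht : t ∈ K (e i)) (ht0 : t ≠ 0) : Ac K x (e j) (hh C x (e i) t) 1 := by
  refine ⟨one_mem _, fun u hu => ?_⟩
  rw [h.h_rel i j hne t u ht ht0 hu, if_neg (by rw [hij]; decide), hij, zpow_zero]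

lemma ac_one (h : TD F₄ 2 C e K₀ K x) {i j : Fin 4} (hne : i ≠ j) (hij : F₄ j i = -1) {t : F}
    (ht : t ∈ K (e i)) (ht' : t ∈ K (e j)) (ht0 : t ≠ 0) :
    Ac K x (e j) (hh C x (e i) t) t⁻¹ := by
  refine ⟨inv_mem ht', fun u hu => ?_⟩
  rw [h.h_rel i j hne t u ht ht0 hu, if_neg (by rw [hij]; decide), hij, zpow_neg_one]

lemma ac_two [Finite F] (h : TD F₄ 2 C e K₀ K x) {t : F} (ht0 : t ≠ 0) :
    Ac K x (e 1) (hh C x (e 2) t) (t * t ^ Nat.card K₀)⁻¹ := by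
  refine ⟨inv_mem (by rw [h.K4_1]; exact norm_mem h.card t), fun u hu => ?_⟩
  rw [h.h_rel 2 1 (by decide) t u (by rw [h.K4_2]; trivial) ht0 hu, if_pos (by decide),
    div_two h.card, pow_succ']

/-- the action of an element of the torus of `²E₆(q)` -/
lemma ac_all [Finite F] (h : TD F₄ 2 C e K₀ K x) {t₀ t₁ t₂ t₃ : F} (h0 : t₀ ∈ K₀) (h1 : t₁ ∈ K₀)
    (h00 : t₀ ≠ 0) (h10 : t₁ ≠ 0) (h20 : t₂ ≠ 0) (h30 : t₃ ≠ 0) :
    ∃ g ∈ TT C K x, Ac K x (e 0) g (t₀ * t₀ * t₁⁻¹) ∧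
      Ac K x (e 1) g (t₀⁻¹ * (t₁ * t₁) * (t₂ * t₂ ^ Nat.card K₀)⁻¹) ∧
      Ac K x (e 2) g (t₁⁻¹ * (t₂ * t₂) * t₃⁻¹) ∧ Ac K x (e 3) g (t₂⁻¹ * (t₃ * t₃)) := by
  have k0 : t₀ ∈ K (e 0) := by rwa [h.K4_0]
  have k1 : t₁ ∈ K (e 1) := by rwa [h.K4_1]
  have k1' : t₁ ∈ K (e 0) := by rwa [h.K4_0]
  have k0' : t₀ ∈ K (e 1) := by rwa [h.K4_1]
  have k2 : ∀ t : F, t ∈ K (e 2) := fun t => by rw [h.K4_2]; trivial
  have k3 : ∀ t : F, t ∈ K (e 3) := fun t => by rw [h.K4_3]; trivial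
  refine ⟨hh C x (e 0) t₀ * hh C x (e 1) t₁ * hh C x (e 2) t₂ * hh C x (e 3) t₃,
    mul_mem (mul_mem (mul_mem (h.ts.h_mem k0 h00) (h.ts.h_mem k1 h10)) (h.ts.h_mem (k2 _) h20))
      (h.ts.h_mem (k3 _) h30), ?_, ?_, ?_, ?_⟩
  · have := (((h.ac_self 0 k0 h00).mul (h.ac_one (i := 1) (j := 0) (by decide) (by decide) k1 k1'
      h10)).mul (h.ac_zero (i := 2) (j := 0) (by decide) (by decide) (k2 t₂) h20)).mul
      (h.ac_zero (i := 3) (j := 0) (by decide) (by decide) (k3 t₃) h30)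
    rwa [mul_one, mul_one] at this
  · have := (((h.ac_one (i := 0) (j := 1) (by decide) (by decide) k0 k0' h00).mul
      (h.ac_self 1 k1 h10)).mul (h.ac_two h20)).mul
      (h.ac_zero (i := 3) (j := 1) (by decide) (by decide) (k3 t₃) h30)
    rwa [mul_one] at this
  · have := (((h.ac_zero (i := 0) (j := 2) (by decide) (by decide) k0 h00).mul
      (h.ac_one (i := 1) (j := 2) (by decide) (by decide) k1 (k2 _) h10)).mul
      (h.ac_self 2 (k2 _) h20)).mul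
      (h.ac_one (i := 3) (j := 2) (by decide) (by decide) (k3 t₃) (k2 _) h30)
    rwa [one_mul] at this
  · have := (((h.ac_zero (i := 0) (j := 3) (by decide) (by decide) k0 h00).mul
      (h.ac_zero (i := 1) (j := 3) (by decide) (by decide) k1 h10)).mul
      (h.ac_one (i := 2) (j := 3) (by decide) (by decide) (k2 _) (k3 _) h20)).mul
      (h.ac_self 3 (k3 _) h30)
    rwa [one_mul, one_mul] at this

/-- cubes -/
lemma ac_cube [Finite F] (h : TD F₄ 2 C e K₀ K x) {a b s t : F} (ha : a ∈ K₀) (hb : b ∈ K₀)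
    (n0 : a ≠ 0) (n1 : b ≠ 0) (n2 : s ≠ 0) (n3 : t ≠ 0) : ∃ g ∈ TT C K x, Ac K x (e 0) g (a ^ 3) ∧
      Ac K x (e 1) g (b ^ 3) ∧ Ac K x (e 2) g (s ^ 3) ∧ Ac K x (e 3) g (t ^ 3) := by
  obtain ⟨q, hq⟩ : ∃ q, q = Nat.card K₀ := ⟨_, rfl⟩
  have N2 := norm_mem h.card s
  have N3 := norm_mem h.card t
  have f2 := pow_qq h.card s
  have f3 := pow_qq h.card t
  have q0 := pow_q a ha
  have q1 := pow_q b hb
  rw [← hq] at N2 N3 f2 f3 q0 q1
  obtain ⟨s', hs'⟩ : ∃ s', s' = s ^ q := ⟨_, rfl⟩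
  obtain ⟨t', ht'⟩ : ∃ t', t' = t ^ q := ⟨_, rfl⟩
  have m2 : s' ≠ 0 := by rw [hs']; exact pow_ne_zero _ n2
  have m3 : t' ≠ 0 := by rw [ht']; exact pow_ne_zero _ n3
  rw [← hs'] at N2 f2
  rw [← ht'] at N3 f3
  obtain ⟨g, hg, g0, g1, g2, g3⟩ := h.ac_all (t₀ := a ^ 6 * b ^ 9 * (s * s') ^ 6 * (t * t') ^ 3)
    (t₁ := a ^ 9 * b ^ 18 * (s * s') ^ 12 * (t * t') ^ 6)
    (t₂ := a ^ 6 * b ^ 12 * s ^ 10 * s' ^ 8 * t ^ 5 * t' ^ 4)
    (t₃ := a ^ 3 * b ^ 6 * s ^ 5 * s' ^ 4 * t ^ 4 * t' ^ 2)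
    (mul_mem (mul_mem (mul_mem (pow_mem ha _) (pow_mem hb _)) (pow_mem N2 _)) (pow_mem N3 _))
    (mul_mem (mul_mem (mul_mem (pow_mem ha _) (pow_mem hb _)) (pow_mem N2 _)) (pow_mem N3 _))
    (by simp [n0, n1, n2, n3, m2, m3]) (by simp [n0, n1, n2, n3, m2, m3])
    (by simp [n0, n1, n2, n3, m2, m3]) (by simp [n0, n1, n2, n3, m2, m3])
  have hq' : ∀ (y : F) (n : ℕ), (y ^ n) ^ q = (y ^ q) ^ n := fun y n => by
    rw [← pow_mul, ← pow_mul, mul_comm]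
  have e1 : (a ^ 6 * b ^ 12 * s ^ 10 * s' ^ 8 * t ^ 5 * t' ^ 4) ^ q =
      a ^ 6 * b ^ 12 * s' ^ 10 * s ^ 8 * t' ^ 5 * t ^ 4 := by
    rw [mul_pow, mul_pow, mul_pow, mul_pow, mul_pow, hq', hq', hq', hq', hq', hq', q0, q1, f2, f3,
      ← hs', ← ht']
  rw [← hq, e1] at g1
  refine ⟨g, hg, ?_, ?_, ?_, ?_⟩
  · convert g0 using 1
    field_simp
  · convert g1 using 1
    field_simp
  · convert g2 using 1
    field_simp
  · convert g3 using 1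
    field_simp

/-- scalars in `K₀` -/
lemma ac_sub [Finite F] (h : TD F₄ 2 C e K₀ K x) {a b s t : F} (ha : a ∈ K₀) (hb : b ∈ K₀)
    (hs : s ∈ K₀) (ht : t ∈ K₀)
    (n0 : a ≠ 0) (n1 : b ≠ 0) (n2 : s ≠ 0) (n3 : t ≠ 0) : ∃ g ∈ TT C K x, Ac K x (e 0) g a ∧
      Ac K x (e 1) g b ∧ Ac K x (e 2) g s ∧ Ac K x (e 3) g t := by
  have q0 := pow_q a ha
  have q1 := pow_q b hb
  have q2 := pow_q s hs
  have q3 := pow_q t ht
  obtain ⟨g, hg, g0, g1, g2, g3⟩ := h.ac_all (t₀ := a ^ 2 * b ^ 3 * s ^ 4 * t ^ 2)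
    (t₁ := a ^ 3 * b ^ 6 * s ^ 8 * t ^ 4)
    (t₂ := a ^ 2 * b ^ 4 * s ^ 6 * t ^ 3)
    (t₃ := a * b ^ 2 * s ^ 3 * t ^ 2)
    (mul_mem (mul_mem (mul_mem (pow_mem ha _) (pow_mem hb _)) (pow_mem hs _)) (pow_mem ht _))
    (mul_mem (mul_mem (mul_mem (pow_mem ha _) (pow_mem hb _)) (pow_mem hs _)) (pow_mem ht _))
    (by simp [n0, n1, n2, n3]) (by simp [n0, n1, n2, n3])
    (by simp [n0, n1, n2, n3]) (by simp [n0, n1, n2, n3])
  have e1 : (a ^ 2 * b ^ 4 * s ^ 6 * t ^ 3) ^ Nat.card K₀ = a ^ 2 * b ^ 4 * s ^ 6 * t ^ 3 :=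
    pow_q _ (mul_mem (mul_mem (mul_mem (pow_mem ha _) (pow_mem hb _)) (pow_mem hs _)) (pow_mem ht _))
  rw [e1] at g1
  refine ⟨g, hg, ?_, ?_, ?_, ?_⟩
  · convert g0 using 1
    field_simp
  · convert g1 using 1
    field_simp
  · convert g2 using 1
    field_simp
  · convert g3 using 1
    field_simp

lemma simp4 (h : TD F₄ 2 C e K₀ K x) {i : ι} (hi : C.simp i) :
    i = e 0 ∨ i = e 1 ∨ i = e 2 ∨ i = e 3 := by
  obtain ⟨k, rfl⟩ := (h.simp i).1 hi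
  fin_cases k <;> simp

/-- `²E₆(q)`: the cubes of all characters -/
theorem dc3 [Finite F] (h : TD F₄ 2 C e K₀ K x) : DC C K x 3 := by
  refine H164.TW.surT_of h.ts fun c hc => ?_
  have h0 := hc (e 0) ((h.simp _).2 ⟨0, rfl⟩)
  have h1 := hc (e 1) ((h.simp _).2 ⟨1, rfl⟩)
  have h2 := hc (e 2) ((h.simp _).2 ⟨2, rfl⟩)
  have h3 := hc (e 3) ((h.simp _).2 ⟨3, rfl⟩)
  rw [h.K4_0] at h0
  rw [h.K4_1] at h1
  obtain ⟨g, hg, g0, g1, g2, g3⟩ := h.ac_cube h0.1 h1.1 h0.2 h1.2 h2.2 h3.2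
  refine ⟨g, hg, fun i hi => ?_⟩
  rcases h.simp4 hi with rfl | rfl | rfl | rfl
  exacts [g0.2, g1.2, g2.2, g3.2]

/-- `²E₆(q)`: all characters if `3` does not divide `q + 1` -/
theorem dc1 [Finite F] (h : TD F₄ 2 C e K₀ K x) (h3 : ¬ 3 ∣ Nat.card K₀ + 1) : DC C K x 1 := by
  refine H164.TW.surT_of h.ts fun c hc => ?_
  have h0 := hc (e 0) ((h.simp _).2 ⟨0, rfl⟩)
  have h1 := hc (e 1) ((h.simp _).2 ⟨1, rfl⟩)
  have h2 := hc (e 2) ((h.simp _).2 ⟨2, rfl⟩)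
  have h3 := hc (e 3) ((h.simp _).2 ⟨3, rfl⟩)
  rw [h.K4_0] at h0
  rw [h.K4_1] at h1
  -- `y = z w³` with `z ∈ K₀`
  have key : ∀ y : F, y ≠ 0 → ∃ z w : F, z ∈ K₀ ∧ z ≠ 0 ∧ w ≠ 0 ∧ z * w ^ 3 = y := by
    intro y hy
    have h4 : ∃ k l : ℕ, 3 * k = 1 + (Nat.card K₀ + 1) * l := by
      have h5 : (Nat.card K₀ + 1) % 3 = 1 ∨ (Nat.card K₀ + 1) % 3 = 2 := by omega
      rcases h5 with h5 | h5
      · exact ⟨1 + 2 * ((Nat.card K₀ + 1) / 3), 2, by omega⟩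
      · exact ⟨1 + (Nat.card K₀ + 1) / 3, 1, by omega⟩
    obtain ⟨k, l, hkl⟩ := h4
    refine ⟨((y * y ^ Nat.card K₀) ^ l)⁻¹, y ^ k, inv_mem (pow_mem (norm_mem h.card y) l),
      inv_ne_zero (pow_ne_zero _ (mul_ne_zero hy (pow_ne_zero _ hy))), pow_ne_zero _ hy, ?_⟩
    rw [← pow_mul, mul_comm k 3, hkl, ← pow_succ', ← pow_mul, pow_add, pow_one, mul_comm y,
      inv_mul_cancel_left₀ (pow_ne_zero _ hy)]
  obtain ⟨z, w, hz, hz0, hw0, hzw⟩ := key _ h2.2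
  obtain ⟨z', w', hz', hz0', hw0', hzw'⟩ := key _ h3.2
  obtain ⟨g, hg, g0, g1, g2, g3⟩ := h.ac_sub h0.1 h1.1 hz hz' h0.2 h1.2 hz0 hz0'
  obtain ⟨g', hg', g0', g1', g2', g3'⟩ := h.ac_cube (one_mem _) (one_mem _) one_ne_zero one_ne_zero
    hw0 hw0'
  refine ⟨g * g', mul_mem hg hg', fun i hi => ?_⟩
  rw [pow_one]
  rcases h.simp4 hi with rfl | rfl | rfl | rfl
  · have := (g0.mul g0').2
    rwa [one_pow, mul_one] at this
  · have := (g1.mul g1').2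
    rwa [one_pow, mul_one] at this
  · have := (g2.mul g2').2
    rwa [hzw] at this
  · have := (g3.mul g3').2
    rwa [hzw'] at this

end TD

end

end Vale.Agent.P240.R2.H945.W
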