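import Vale.Agent.P240.R2.H945.W.NT

/-!
The group `U` is an `r`-group (after `X2`, H684).
-/

set_option autoImplicit false

namespace Vale.Agent.P240.R2.H945.W

open Subgroup
open Vale.Agent.P240.R2.H986.X (RC nn nl wl SS)

section
variable {ι : Type*} {F : Type*} [Field F] {L : Type*} [Group L] {C : RC ι} {K : ι → Subfield F}
  {x : ι → F → L}

lemma x_comm (h : TS C K x) (i : ι) {t u : F} (ht : t ∈ K i) (hu : u ∈ K i) :
    x i t * x i u = x i u * x i t := by
  rw [← h.add i _ _ ht hu, ← h.add i _ _ hu ht, add_comm]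

lemma x_pow (h : TS C K x) (i : ι) {t : F} (ht : t ∈ K i) (n : ℕ) : x i t ^ n = x i (n * t) := by
  induction n with
  | zero => rw [pow_zero, Nat.cast_zero, zero_mul, h.x_zero]
  | succ n ih =>
    rw [pow_succ, ih, ← h.add i _ _ (mul_mem (natCast_mem _ n) ht) ht, Nat.cast_succ, add_mul,
      one_mul]

lemma gr_mono {p q : ι → Prop} (h : ∀ i, p i → q i) : gr K x p ≤ gr K x q :=
  closure_mono (by rintro _ ⟨i, t, hi, ht, rfl⟩; exact ⟨i, t, h i hi, ht, rfl⟩)

lemma mem_gr {p : ι → Prop} {i : ι} (hi : p i) {t : F} (ht : t ∈ K i) : x i t ∈ gr K x p :=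
  subset_closure ⟨i, t, hi, ht, rfl⟩

/-- Ideals of positive roots. -/
def Ideal' (C : RC ι) (p : ι → Prop) : Prop :=
  (∀ i, p i → 0 < C.ht i) ∧ ∀ i j k, p i → 0 < C.ht j → C.cone i j k → p k

/-- The subgroup of an ideal is normalised by the positive root elements. -/
lemma conj_mem (h : TS C K x) {p : ι → Prop} (hp : Ideal' C p) {j : ι} (hj : 0 < C.ht j) {u : F} (hu : u ∈ K j)
    {g : L} (hg : g ∈ gr K x p) : x j u * g * (x j u)⁻¹ ∈ gr K x p := by
  induction hg using closure_induction with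
  | mem g hg =>
    obtain ⟨i, t, hi, ht, rfl⟩ := hg
    have hi0 := hp.1 i hi
    by_cases hij : j = i
    · subst hij
      rw [x_comm h _ hu ht, mul_inv_cancel_right]
      exact mem_gr hi ht
    · have hn : j ≠ C.neg i := by
        intro he
        have h1 := C.ht_neg i
        rw [← he] at h1
        omega
      have h1 := h.comm j i hij hn u t hu ht
      have h2 : gr K x (C.cone j i) ≤ gr K x p :=
        gr_mono fun k hk => hp.2 i j k hi hj (C.cone_symm _ _ _ hk)
      have h3 : x j u * x i t * (x j u)⁻¹ =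
          x j u * x i t * (x j u)⁻¹ * (x i t)⁻¹ * x i t := by
        rw [inv_mul_cancel_right]
      rw [h3]
      exact mul_mem (h2 h1) (mem_gr hi ht)
  | one => rw [mul_one, mul_inv_cancel]; exact one_mem _
  | mul a b _ _ ha hb =>
    have h1 : x j u * (a * b) * (x j u)⁻¹ =
        (x j u * a * (x j u)⁻¹) * (x j u * b * (x j u)⁻¹) := by group
    rw [h1]
    exact mul_mem ha hb
  | inv a _ ha =>
    have h1 : x j u * a⁻¹ * (x j u)⁻¹ = (x j u * a * (x j u)⁻¹)⁻¹ := by group
    rw [h1]
    exact inv_mem ha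

lemma mem_norm (h : TS C K x) {p : ι → Prop} (hp : Ideal' C p) {j : ι} (hj : 0 < C.ht j) {u : F}
    (hu : u ∈ K j) : x j u ∈ normalizer (gr K x p : Set L) := by
  rw [mem_normalizer_iff]
  intro g
  constructor
  · intro hg
    exact conj_mem h hp hj hu hg
  · intro hg
    have h1 := conj_mem h hp hj (neg_mem hu) hg
    rw [h.x_neg j hu] at h1
    have h2 : (x j u)⁻¹ * (x j u * g * (x j u)⁻¹) * (x j u)⁻¹⁻¹ = g := by group
    rwa [h2] at h1

/-- One root group. -/
lemma root_pgroup (h : TS C K x) (r : ℕ) [CharP F r] (i : ι) : IsPGroup r (gr K x (fun j => j = i)) := by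
  rintro ⟨g, hg⟩
  have h1 : ∃ t, t ∈ K i ∧ g = x i t := by
    induction hg using closure_induction with
    | mem g hg =>
      obtain ⟨j, t, rfl, ht, rfl⟩ := hg
      exact ⟨t, ht, rfl⟩
    | one => exact ⟨0, zero_mem _, (h.x_zero i).symm⟩
    | mul a b _ _ ha hb =>
      obtain ⟨t, ht, rfl⟩ := ha
      obtain ⟨u, hu, rfl⟩ := hb
      exact ⟨t + u, add_mem ht hu, (h.add i t u ht hu).symm⟩
    | inv a _ ha =>
      obtain ⟨t, ht, rfl⟩ := ha
      exact ⟨-t, neg_mem ht, (h.x_neg i ht).symm⟩
  obtain ⟨t, ht, rfl⟩ := h1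
  refine ⟨1, ?_⟩
  apply Subtype.ext
  rw [SubmonoidClass.coe_pow, pow_one, x_pow h i ht, CharP.cast_eq_zero, zero_mul, h.x_zero]
  rfl

/-- The subgroup of a finite ideal is an `r`-group. -/
theorem ideal_pgroup [DecidableEq ι] (h : TS C K x) (r : ℕ) [Fact r.Prime] [CharP F r] :
    ∀ (n : ℕ) (S : Finset ι), S.card = n → Ideal' C (· ∈ S) → IsPGroup r (gr K x (· ∈ S)) := by
  intro n
  induction n with
  | zero =>
    intro S hS _
    rw [Finset.card_eq_zero] at hS
    subst hS
    have h1 : gr K x (fun i => i ∈ (∅ : Finset ι)) = ⊥ := by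
      rw [eq_bot_iff, gr, closure_le]
      rintro _ ⟨i, t, hi, -, -⟩
      exact absurd hi (Finset.notMem_empty i)
    rw [h1]
    exact IsPGroup.of_bot
  | succ n ih =>
    intro S hS hp
    have hne : S.Nonempty := by
      rw [← Finset.card_pos]; omega
    obtain ⟨i, hi, hmin⟩ := Finset.exists_min_image S C.ht hne
    have hp' : Ideal' C (· ∈ S.erase i) := by
      refine ⟨fun j hj => hp.1 j (Finset.mem_of_mem_erase hj), ?_⟩
      intro j l k hj hl hk
      have hjS := Finset.mem_of_mem_erase hj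
      refine Finset.mem_erase.2 ⟨?_, hp.2 j l k hjS hl hk⟩
      intro he
      have h1 := (C.cone_ht j l k hk (hp.1 j hjS) hl).1
      have h2 := hmin j hjS
      rw [he] at h1
      omega
    have hV := ih (S.erase i) (by rw [Finset.card_erase_of_mem hi, hS]; rfl) hp'
    have hX := root_pgroup h r i
    have hn : gr K x (fun j => j = i) ≤ normalizer (gr K x (· ∈ S.erase i) : Set L) := by
      rw [gr, closure_le]
      rintro _ ⟨j, t, rfl, ht, rfl⟩
      exact mem_norm h hp' (hp.1 j hi) ht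
    have h3 := IsPGroup.to_sup_of_normal_right' hX hV hn
    refine h3.to_le ?_
    rw [gr, closure_le]
    rintro _ ⟨j, t, hj, ht, rfl⟩
    by_cases hji : j = i
    · have h4 : x j t ∈ gr K x (fun j => j = i) := subset_closure ⟨j, t, hji, ht, rfl⟩
      exact mem_sup_left h4
    · have h4 : x j t ∈ gr K x (· ∈ S.erase i) :=
        subset_closure ⟨j, t, Finset.mem_erase.2 ⟨hji, hj⟩, ht, rfl⟩
      exact mem_sup_right h4

/-- `U` is an `r`-group. -/
theorem UU_pgroup [Finite ι] (h : TS C K x) (r : ℕ) [Fact r.Prime] [CharP F r] :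
    IsPGroup r (UU C K x) := by
  classical
  have := Fintype.ofFinite ι
  have h1 := ideal_pgroup h r _ (Finset.univ.filter (fun i => 0 < C.ht i)) rfl ?_
  · have h2 : (fun i => i ∈ Finset.univ.filter (fun i => 0 < C.ht i)) = fun i => 0 < C.ht i := by
      funext i
      simp
    rw [UU, ← h2]
    exact h1
  · constructor
    · intro i hi
      exact (Finset.mem_filter.1 hi).2
    · intro i j k hi hj hk
      have hi' := (Finset.mem_filter.1 hi).2
      refine Finset.mem_filter.2 ⟨Finset.mem_univ _, ?_⟩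
      have := (C.cone_ht i j k hk hi' hj).1
      omega

end

end Vale.Agent.P240.R2.H945.W
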