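import Vale.Agent.P240.R2.H945.W.X2

/-!
The split BN-pair of a group given by twisted Chevalley relations (after `X3`, H684).
-/

set_option autoImplicit false

namespace Vale.Agent.P240.R2.H945.W

open Subgroup Vale.Agent.P240.H195 TS
open Vale.Agent.P240.R2.H986.X (RC nn nl wl nl_nil nl_cons nl_append wl_nil wl_cons wl_append wl_neg wl_s
  wl_rev wl_rev' SS)

section
variable {ι : Type*} {F : Type*} [Field F] {L : Type*} [Group L] {C : RC ι} {K : ι → Subfield F}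
  {x : ι → F → L}

lemma n_act (h : TS C K x) (i j : ι) : ∃ φ : F → F, (∀ u, u ∈ K j → φ u ∈ K j) ∧
    (∀ u, u ∈ K j → u ≠ 0 → φ u ≠ 0) ∧
    ∀ u, u ∈ K j → nn C.neg x i 1 * x j u * (nn C.neg x i 1)⁻¹ = x (C.s i j) (φ u) := by
  obtain ⟨φ, h1, h2, h3, -⟩ := h.nn_act i j (one_mem (K i)) one_ne_zero
  exact ⟨φ, h1, h2, h3⟩

lemma n_inv_act (h : TS C K x) (i j : ι) : ∃ φ : F → F, (∀ u, u ∈ K j → φ u ∈ K j) ∧
    (∀ u, u ∈ K j → u ≠ 0 → φ u ≠ 0) ∧
    ∀ u, u ∈ K j → (nn C.neg x i 1)⁻¹ * x j u * nn C.neg x i 1 = x (C.s i j) (φ u) := by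
  obtain ⟨φ, h1, h2, h3, -⟩ := h.nn_act i j (neg_mem (one_mem (K i)))
    (neg_ne_zero.2 one_ne_zero)
  refine ⟨φ, h1, h2, fun u hu => ?_⟩
  have h4 := h3 u hu
  rw [← h.nn_inv i (one_mem _), inv_inv] at h4
  exact h4

/-- `n_i(1)` maps the root group of `j` onto the root group of `s_i(j)` -/
lemma n_onto (h : TS C K x) (i j : ι) {u : F} (hu : u ∈ K j) : ∃ v, v ∈ K j ∧
    x (C.s i j) u = nn C.neg x i 1 * x j v * (nn C.neg x i 1)⁻¹ := by
  obtain ⟨φ, h1, h2, h3⟩ := n_inv_act h i (C.s i j)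
  rw [h.K_s] at h1 h2 h3
  refine ⟨φ u, h1 u hu, ?_⟩
  have h4 := h3 u hu
  rw [C.s_s] at h4
  rw [← h4]
  group

/-- The group generated by the root elements of the positive roots different from `i`. -/
def Ui (C : RC ι) (K : ι → Subfield F) (x : ι → F → L) (i : ι) : Subgroup L := gr K x (fun j => 0 < C.ht j ∧ j ≠ i)

lemma Ui_le (i : ι) : Ui C K x i ≤ UU C K x := gr_mono fun _ hj => hj.1

lemma ne_neg {i j : ι} (hi : 0 < C.ht i) (hj : 0 < C.ht j) : i ≠ C.neg j := by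
  intro he
  have h1 := C.ht_neg j
  rw [← he] at h1
  omega

lemma Ui_conj_x (h : TS C K x) {i : ι} (hi : C.simp i) {t : F} (ht : t ∈ K i) {g : L}
    (hg : g ∈ Ui C K x i) :
    x i t * g * (x i t)⁻¹ ∈ Ui C K x i := by
  refine closure_induction (p := fun g _ => x i t * g * (x i t)⁻¹ ∈ Ui C K x i) ?_ ?_ ?_ ?_ hg
  · rintro _ ⟨j, v, hj, hv, rfl⟩
    have hi0 := C.simp_pos i hi
    have h1 := h.comm i j (Ne.symm hj.2) (ne_neg hi0 hj.1) t v ht hv
    have h2 : gr K x (C.cone i j) ≤ Ui C K x i := gr_mono fun k hk =>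
      ⟨lt_trans hi0 (C.cone_ht i j k hk hi0 hj.1).1, C.cone_simp i j k hi hj.1 hj.2 hk⟩
    have h3 : x i t * x j v * (x i t)⁻¹ =
        x i t * x j v * (x i t)⁻¹ * (x j v)⁻¹ * x j v := by
      rw [inv_mul_cancel_right]
    rw [h3]
    exact mul_mem (h2 h1) (subset_closure ⟨j, v, hj, hv, rfl⟩)
  · rw [mul_one, mul_inv_cancel]
    exact one_mem _
  · intro a b _ _ h1 h2
    have e1 : x i t * (a * b) * (x i t)⁻¹ = (x i t * a * (x i t)⁻¹) * (x i t * b * (x i t)⁻¹) := by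
      group
    rw [e1]
    exact mul_mem h1 h2
  · intro a _ h1
    have e1 : x i t * a⁻¹ * (x i t)⁻¹ = (x i t * a * (x i t)⁻¹)⁻¹ := by group
    rw [e1]
    exact inv_mem h1

/-- `U = U_i X_i` -/
lemma U_dec (h : TS C K x) {i : ι} (hi : C.simp i) {g : L} (hg : g ∈ UU C K x) :
    ∃ v ∈ Ui C K x i, ∃ c, c ∈ K i ∧ g = v * x i c := by
  have key : ∀ (j : ι) (t : F), 0 < C.ht j → t ∈ K j → ∀ y : L,
      (∃ v ∈ Ui C K x i, ∃ c, c ∈ K i ∧ y = v * x i c) →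
      ∃ v ∈ Ui C K x i, ∃ c, c ∈ K i ∧ x j t * y = v * x i c := by
    rintro j t hj ht _ ⟨v, hv, c, hc, rfl⟩
    by_cases hji : j = i
    · subst hji
      refine ⟨x j t * v * (x j t)⁻¹, Ui_conj_x h hi ht hv, t + c, add_mem ht hc, ?_⟩
      rw [h.add j t c ht hc]
      group
    · refine ⟨x j t * v, mul_mem (subset_closure ⟨j, t, ⟨hj, hji⟩, ht, rfl⟩) hv, c, hc, ?_⟩
      rw [mul_assoc]
  refine closure_induction_left (p := fun g _ => ∃ v ∈ Ui C K x i, ∃ c, c ∈ K i ∧ g = v * x i c)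
    ⟨1, one_mem _, 0, zero_mem _, by rw [h.x_zero, mul_one]⟩ ?_ ?_ hg
  · rintro _ ⟨j, t, hj, ht, rfl⟩ y _ hy
    exact key j t hj ht y hy
  · rintro _ ⟨j, t, hj, ht, rfl⟩ y _ hy
    rw [← h.x_neg j ht]
    exact key j (-t) hj (neg_mem ht) y hy

lemma Ui_conj_n (h : TS C K x) {i : ι} (hi : C.simp i) {g : L} (hg : g ∈ Ui C K x i) :
    nn C.neg x i 1 * g * (nn C.neg x i 1)⁻¹ ∈ Ui C K x i := by
  have h1 := h.nl_conj_gr (p := fun j => 0 < C.ht j ∧ j ≠ i) (q := fun j => 0 < C.ht j ∧ j ≠ i)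
    (l := [i]) (fun j hj => ?_) hg
  · rw [nl_cons, nl_nil, mul_one] at h1
    exact h1
  · rw [wl_cons, wl_nil]
    refine ⟨C.s_pos i j hi hj.1 hj.2, fun he => ?_⟩
    have h2 := C.s_s i j
    rw [he, C.s_self] at h2
    have h3 := C.ht_neg i
    have h4 := C.simp_pos i hi
    have h5 := hj.1
    rw [← h2] at h5
    omega

lemma Ui_normal (h : TS C K x) {i : ι} (hi : C.simp i) {g u : L} (hu : u ∈ UU C K x)
    (hg : g ∈ Ui C K x i) : u * g * u⁻¹ ∈ Ui C K x i := by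
  obtain ⟨v, hv, c, hcK, rfl⟩ := U_dec h hi hu
  have e1 : v * x i c * g * (v * x i c)⁻¹ = v * (x i c * g * (x i c)⁻¹) * v⁻¹ := by group
  rw [e1]
  exact mul_mem (mul_mem hv (Ui_conj_x h hi hcK hg)) (inv_mem hv)

lemma simp_neg_lt {i : ι} (hi : C.simp i) : C.ht (C.neg i) < 0 := by
  have h1 := C.ht_neg i
  have h2 := C.simp_pos i hi
  omega

/-- the elements of `U` that stay in `U` -/
lemma mem_Ui (h : TS C K x) {i : ι} (hi : C.simp i) {g : L} (hg : g ∈ UU C K x)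
    (hg' : nn C.neg x i 1 * g * (nn C.neg x i 1)⁻¹ ∈ UU C K x) : g ∈ Ui C K x i := by
  obtain ⟨v, hv, c, hcK, rfl⟩ := U_dec h hi hg
  obtain ⟨φ, hφ, hφ0, h1⟩ := n_act h i i
  have e1 : nn C.neg x i 1 * (v * x i c) * (nn C.neg x i 1)⁻¹ =
      (nn C.neg x i 1 * v * (nn C.neg x i 1)⁻¹) *
        (nn C.neg x i 1 * x i c * (nn C.neg x i 1)⁻¹) := by group
  rw [e1, h1 c hcK, C.s_self] at hg'
  have h2 := (mul_mem_cancel_left (Ui_le i (Ui_conj_n h hi hv))).1 hg'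
  have h3 := h.x_not_mem (simp_neg_lt hi) (by rw [h.K_neg]; exact hφ c hcK) h2
  have h4 : c = 0 := by
    by_contra hc0
    exact hφ0 c hcK hc0 h3
  rw [h4, h.x_zero, mul_one]
  exact hv

lemma N_conj_T (h : TS C K x) {n t : L} (hn : n ∈ NN C K x) (ht : t ∈ TT C K x) :
    n * t * n⁻¹ ∈ TT C K x := by
  obtain ⟨t', ht', l, -, rfl⟩ := h.mem_NN hn
  have e1 : t' * nl C x l * t * (t' * nl C x l)⁻¹ =
      t' * (nl C x l * t * (nl C x l)⁻¹) * t'⁻¹ := by group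
  rw [e1]
  exact mul_mem (mul_mem ht' (h.nl_conj_T l ht)) (inv_mem ht')

/-- the action of the elements of `N` on the root elements -/
lemma N_act (h : TS C K x) {n : L} (hn : n ∈ NN C K x) : ∃ l : List ι, ∀ j, ∃ φ : F → F,
    (∀ u, u ∈ K j → φ u ∈ K j) ∧
    ∀ u, u ∈ K j → n * x j u * n⁻¹ = x (wl C l j) (φ u) := by
  obtain ⟨t, ht, l, -, rfl⟩ := h.mem_NN hn
  refine ⟨l, fun j => ?_⟩
  obtain ⟨φ, hφ, -, h1, -⟩ := h.nl_act l j
  obtain ⟨d, hdK, hd, h2⟩ := h.T_act ht (wl C l j)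
  rw [h.K_wl] at hdK h2
  refine ⟨fun u => d * φ u, fun u hu => mul_mem hdK (hφ u hu), fun u hu => ?_⟩
  have e1 : t * nl C x l * x j u * (t * nl C x l)⁻¹ =
      t * (nl C x l * x j u * (nl C x l)⁻¹) * t⁻¹ := by group
  rw [e1, h1 u hu, h2 _ (hφ u hu)]

/-- `x_i(c) = n_i(c) x_i(-c) x_{-i}(c⁻¹)` -/
lemma x_eq (h : TS C K x) (i : ι) {c : F} (hc : c ∈ K i) :
    x i c = nn C.neg x i c * x i (-c) * x (C.neg i) c⁻¹ := by
  rw [nn, h.x_neg i hc, h.x_neg (C.neg i) (by rw [h.K_neg]; exact inv_mem hc)]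
  group

/-- the axiom of the double cosets -/
lemma mul_DC (h : TS C K x) {i : ι} (hi : C.simp i) {b n : L} (hb : b ∈ BB C K x) (hn : n ∈ NN C K x) :
    DC (BB C K x) n (nn C.neg x i 1 * b * n) ∨
      DC (BB C K x) (nn C.neg x i 1 * n) (nn C.neg x i 1 * b * n) := by
  obtain ⟨g, hg, t, ht, rfl⟩ := h.mem_BB hb
  obtain ⟨v, hv, c, hcK, rfl⟩ := U_dec h hi hg
  obtain ⟨l, hl⟩ := N_act h (inv_mem hn)
  set s := nn C.neg x i 1 with hs
  have hvB : s * v * s⁻¹ ∈ BB C K x := UU_le (Ui_le i (Ui_conj_n h hi hv))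
  have htn : n⁻¹ * t * n ∈ BB C K x := by
    have h1 := N_conj_T h (inv_mem hn) ht
    rw [inv_inv] at h1
    exact TT_le_BB h1
  by_cases hk : 0 < C.ht (wl C l i)
  · right
    obtain ⟨φ, hφ, h1⟩ := hl i
    have h2 := h1 c hcK
    rw [inv_inv] at h2
    refine ⟨s * v * s⁻¹, hvB, (n⁻¹ * x i c * n) * (n⁻¹ * t * n), mul_mem ?_ htn, ?_⟩
    · rw [h2]
      exact UU_le (x_mem_UU hk (by rw [h.K_wl]; exact hφ c hcK))
    · group
  · have hk' : 0 < C.ht (wl C l (C.neg i)) := by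
      have h1 := C.ht_ne (wl C l i)
      rw [wl_neg, C.ht_neg]
      omega
    by_cases hc : c = 0
    · right
      subst hc
      refine ⟨s * v * s⁻¹, hvB, n⁻¹ * t * n, htn, ?_⟩
      rw [h.x_zero]
      group
    · left
      obtain ⟨φ, hφ, h1⟩ := hl (C.neg i)
      have hcN : c⁻¹ ∈ K (C.neg i) := by rw [h.K_neg]; exact inv_mem hcK
      have h2 := h1 c⁻¹ hcN
      rw [inv_inv] at h2
      refine ⟨s * v * s⁻¹ * (s * nn C.neg x i c) * x i (-c), mul_mem (mul_mem hvB ?_) ?_,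
        (n⁻¹ * x (C.neg i) c⁻¹ * n) * (n⁻¹ * t * n), mul_mem ?_ htn, ?_⟩
      · exact TT_le_BB (h.nn_nn (one_mem _) one_ne_zero hcK hc)
      · exact UU_le (x_mem_UU (C.simp_pos i hi) (neg_mem hcK))
      · rw [h2]
        exact UU_le (x_mem_UU hk' (by rw [h.K_wl]; exact hφ _ hcN))
      · have h3 := x_eq h i hcK
        calc s * (v * x i c * t) * n
            = s * (v * (nn C.neg x i c * x i (-c) * x (C.neg i) c⁻¹) * t) * n := by rw [← h3]
          _ = _ := by group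

/-- an element acting trivially on the root elements is trivial -/
lemma eq_one_of_act (h : TS C K x) (hc : ∀ g : L, (∀ y, g * y = y * g) → g = 1) {g : L}
    (hg : ∀ j u, u ∈ K j → g * x j u * g⁻¹ = x j u) : g = 1 := by
  apply hc
  intro y
  have h1 : y ∈ centralizer ({g} : Set L) := by
    have h2 : (⊤ : Subgroup L) ≤ centralizer ({g} : Set L) := by
      rw [← h.gen, gr, closure_le]
      rintro _ ⟨j, u, -, hu, rfl⟩
      rw [SetLike.mem_coe, mem_centralizer_singleton_iff]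
      rw [mul_inv_eq_iff_eq_mul.1 (hg j u hu)]
    exact h2 (mem_top y)
  rw [mem_centralizer_singleton_iff] at h1
  exact h1.symm

/-- `T` is abelian -/
theorem T_comm (h : TS C K x) (hc : ∀ g : L, (∀ y, g * y = y * g) → g = 1) {t t' : L}
    (ht : t ∈ TT C K x) (ht' : t' ∈ TT C K x) : t * t' = t' * t := by
  have h1 : t * t' * t⁻¹ * t'⁻¹ = 1 := by
    apply eq_one_of_act h hc
    intro j u hu
    obtain ⟨c, hcK, hc0, h1⟩ := h.T_act ht j
    obtain ⟨d, hdK, hd0, h2⟩ := h.T_act ht' j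
    have h1' : ∀ u, u ∈ K j → t⁻¹ * x j u * t = x j (c⁻¹ * u) := by
      intro u hu
      have h3 := h1 (c⁻¹ * u) (mul_mem (inv_mem hcK) hu)
      rw [mul_inv_cancel_left₀ hc0] at h3
      rw [← h3]
      group
    have h2' : ∀ u, u ∈ K j → t'⁻¹ * x j u * t' = x j (d⁻¹ * u) := by
      intro u hu
      have h3 := h2 (d⁻¹ * u) (mul_mem (inv_mem hdK) hu)
      rw [mul_inv_cancel_left₀ hd0] at h3
      rw [← h3]
      group
    calc t * t' * t⁻¹ * t'⁻¹ * x j u * (t * t' * t⁻¹ * t'⁻¹)⁻¹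
        = t * (t' * (t⁻¹ * (t'⁻¹ * x j u * t') * t) * t'⁻¹) * t⁻¹ := by group
      _ = x j u := by
        rw [h2' u hu, h1' _ (mul_mem (inv_mem hdK) hu),
          h2 _ (mul_mem (inv_mem hcK) (mul_mem (inv_mem hdK) hu)),
          h1 _ (mul_mem hdK (mul_mem (inv_mem hcK) (mul_mem (inv_mem hdK) hu)))]
        congr 1
        field_simp
  rw [mul_inv_eq_one, mul_inv_eq_iff_eq_mul] at h1
  exact h1

lemma T_pow_act {t : L} {j : ι} {c : F} (hc : c ∈ K j)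
    (h1 : ∀ u, u ∈ K j → t * x j u * t⁻¹ = x j (c * u))
    (n : ℕ) : ∀ u, u ∈ K j → t ^ n * x j u * (t ^ n)⁻¹ = x j (c ^ n * u) := by
  induction n with
  | zero => intro u _; simp
  | succ n ih =>
    intro u hu
    have e1 : t ^ (n + 1) * x j u * (t ^ (n + 1))⁻¹ =
        t * (t ^ n * x j u * (t ^ n)⁻¹) * t⁻¹ := by
      rw [pow_succ']; group
    rw [e1, ih u hu, h1 _ (mul_mem (pow_mem hc n) hu), pow_succ', mul_assoc]

/-- `t ^ (|F| - 1) = 1` -/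
theorem T_pow [Finite F] (h : TS C K x) (hc : ∀ g : L, (∀ y, g * y = y * g) → g = 1) {t : L}
    (ht : t ∈ TT C K x) : t ^ (Nat.card F - 1) = 1 := by
  have := Fintype.ofFinite F
  apply eq_one_of_act h hc
  intro j u hu
  obtain ⟨c, hcK, hc0, h1⟩ := h.T_act ht j
  rw [T_pow_act hcK h1 _ u hu, Nat.card_eq_fintype_card, FiniteField.pow_card_sub_one_eq_one c hc0, one_mul]

lemma cop (F : Type*) [Field F] [Finite F] (r : ℕ) [Fact r.Prime] [CharP F r] (k : ℕ) :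
    Nat.Coprime (r ^ k) (Nat.card F - 1) := by
  have := Fintype.ofFinite F
  apply Nat.Coprime.pow_left
  rw [Nat.Prime.coprime_iff_not_dvd Fact.out]
  intro h1
  have h2 : r ∣ Nat.card F := by
    rw [← CharP.cast_eq_zero_iff F r, Nat.card_eq_fintype_card]
    exact FiniteField.cast_card_eq_zero F
  have h3 : 0 < Nat.card F := Nat.card_pos
  have h4 : r ∣ 1 := by
    have h5 := (Nat.dvd_sub h2 h1)
    have h6 : Nat.card F - (Nat.card F - 1) = 1 := by omega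
    rwa [h6] at h5
  exact (Fact.out : r.Prime).one_lt.ne' (Nat.dvd_one.1 h4)

lemma T_eq_one [Finite F] (h : TS C K x) (hc : ∀ g : L, (∀ y, g * y = y * g) → g = 1)
    (r : ℕ) [Fact r.Prime] [CharP F r] {t : L} (ht : t ∈ TT C K x) {k : ℕ} (hk : t ^ r ^ k = 1) :
    t = 1 := by
  have h1 := orderOf_dvd_of_pow_eq_one hk
  have h2 := orderOf_dvd_of_pow_eq_one (T_pow h hc ht)
  have h3 := Nat.Coprime.eq_one_of_dvd ((cop F r k).coprime_dvd_left h1) h2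
  exact orderOf_eq_one_iff.1 h3

/-- the elements of `B` of `r`-power order -/
lemma mem_U_of_pow [Finite ι] [Finite F] (h : TS C K x)
    (hc : ∀ g : L, (∀ y, g * y = y * g) → g = 1)
    (r : ℕ) [Fact r.Prime] [CharP F r] {g : L} (hg : g ∈ BB C K x) {k : ℕ} (hk : g ^ r ^ k = 1) :
    g ∈ UU C K x := by
  obtain ⟨u, hu, t, ht, rfl⟩ := h.mem_BB hg
  have h1 : ∀ n : ℕ, ∃ v ∈ UU C K x, (u * t) ^ n = v * t ^ n := by
    intro n
    induction n with
    | zero => exact ⟨1, one_mem _, by simp⟩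
    | succ n ih =>
      obtain ⟨v, hv, hv'⟩ := ih
      refine ⟨v * (t ^ n * u * (t ^ n)⁻¹), mul_mem hv (h.T_conj_gr (pow_mem ht n) hu), ?_⟩
      rw [pow_succ, hv', pow_succ]
      group
  obtain ⟨v, hv, hv'⟩ := h1 (r ^ k)
  rw [hk] at hv'
  have h2 : t ^ r ^ k ∈ UU C K x := by
    have h3 : t ^ r ^ k = v⁻¹ := eq_inv_of_mul_eq_one_right hv'.symm
    rw [h3]
    exact inv_mem hv
  obtain ⟨m, hm⟩ := UU_pgroup h r ⟨_, h2⟩
  have h3 : (t ^ r ^ k) ^ r ^ m = 1 := by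
    have := congrArg Subtype.val hm
    simpa using this
  rw [← pow_mul, ← pow_add] at h3
  rw [T_eq_one h hc r ht h3, mul_one]
  exact hu

lemma inf_mem (h : TS C K x) {b : L} (hb : b ∈ BB C K x) (hn : b ∈ NN C K x) : b ∈ TT C K x := by
  rw [← h.inf_eq]
  exact ⟨hb, hn⟩

/-- generation -/
lemma gen_BN (h : TS C K x) : BB C K x ⊔ NN C K x = ⊤ := by
  rw [eq_top_iff, ← h.gen, gr, closure_le]
  have key : ∀ j, ∀ u, u ∈ K j → x j u ∈ BB C K x ⊔ NN C K x := by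
    apply C.gen (fun j => ∀ u, u ∈ K j → x j u ∈ BB C K x ⊔ NN C K x)
    · intro i hi u hu
      exact mem_sup_left (UU_le (x_mem_UU (C.simp_pos i hi) hu))
    · intro i j hi hj u hu
      rw [h.K_s] at hu
      obtain ⟨v, hv, h2⟩ := n_onto h i j hu
      rw [h2]
      have h3 : nn C.neg x i 1 ∈ BB C K x ⊔ NN C K x := mem_sup_right (SS_le _ ⟨i, hi, rfl⟩)
      exact mul_mem (mul_mem h3 (hj _ hv)) (inv_mem h3)
  rintro _ ⟨j, u, -, hu, rfl⟩
  exact key j u hu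

/-- the diagram is connected -/
lemma irr_of (h : TS C K x) {i j : ι} (hi : C.simp i) (hj : C.simp j) (hij : i ≠ j)
    (hp : C.pr j i ≠ 0) :
    (nn C.neg x j 1 * nn C.neg x i 1)⁻¹ * (nn C.neg x i 1 * nn C.neg x j 1) ∉ BB C K x := by
  intro hB
  obtain ⟨φ1, hφ1, hc1, h1⟩ := n_act h j j
  obtain ⟨φ2, hφ2, hc2, h2⟩ := n_act h i (C.s j j)
  obtain ⟨φ4, hφ4, hc4, h4⟩ := n_act h i j
  obtain ⟨φ5, hφ5, hc5, h5⟩ := n_act h j (C.s i j)
  rw [h.K_s] at hφ2 hc2 h2 hφ5 hc5 h5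
  set a := nn C.neg x i 1 with ha
  set b := nn C.neg x j 1 with hb
  have haN : a ∈ NN C K x := SS_le _ ⟨i, hi, rfl⟩
  have hbN : b ∈ NN C K x := SS_le _ ⟨j, hj, rfl⟩
  have hT : (b * a)⁻¹ * (a * b) ∈ TT C K x :=
    inf_mem h hB (mul_mem (inv_mem (mul_mem hbN haN)) (mul_mem haN hbN))
  set t := (b * a)⁻¹ * (a * b) with ht
  have e0 : a * b = b * a * t := by rw [ht, mul_inv_cancel_left]
  -- the root `v = s_i(j)`
  have hv : 0 < C.ht (C.s i j) := C.s_pos i j hi (C.simp_pos j hj) (Ne.symm hij)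
  have hvj : C.s i j ≠ j := (C.adj i j hi hj hij hp).1
  have hw : 0 < C.ht (C.s j (C.s i j)) := C.s_pos j _ hj hv hvj
  obtain ⟨c3, hc3K, hc3, h3⟩ := h.T_act hT j
  have o1 : (1 : F) ∈ K j := one_mem _
  have o3 : c3 * 1 ∈ K j := mul_mem hc3K o1
  have e1 : a * b * x j 1 * (a * b)⁻¹ = x (C.s i (C.s j j)) (φ2 (φ1 1)) := by
    rw [← h2 _ (hφ1 1 o1), ← h1 1 o1]
    group
  have e2 : b * a * t * x j 1 * (b * a * t)⁻¹ = x (C.s j (C.s i j)) (φ5 (φ4 (c3 * 1))) := by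
    rw [← h5 _ (hφ4 _ o3), ← h4 _ o3, ← h3 1 o1]
    group
  rw [← e0, e1, C.s_self, C.s_neg] at e2
  have hneg : C.ht (C.neg (C.s i j)) < 0 := by
    rw [C.ht_neg]
    omega
  have h6 : x (C.neg (C.s i j)) (φ2 (φ1 1)) ∈ UU C K x := by
    rw [e2]
    exact x_mem_UU hw (by rw [h.K_s, h.K_s]; exact hφ5 _ (hφ4 _ o3))
  have h7 := h.x_not_mem hneg (by rw [h.K_neg, h.K_s]; exact hφ2 _ (hφ1 _ o1)) h6
  exact hc2 _ (hφ1 _ o1) (hc1 _ o1 one_ne_zero) h7

/-- **The split BN-pair.** -/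
theorem splitBN [Finite ι] [Finite F] [Finite L] (h : TS C K x)
    (hc : ∀ g : L, (∀ y, g * y = y * g) → g = 1) (r : ℕ) [Fact r.Prime] [CharP F r] :
    SplitBN r (BB C K x) (NN C K x) (UU C K x) (SS C x) where
  norm n hn t ht htN := TT_le_BB (N_conj_T h hn (inf_mem h ht htN))
  sub := SS_le
  span := by rw [h.inf_eq]; rfl
  sq := by
    rintro _ ⟨i, hi, rfl⟩
    exact TT_le_BB (h.nn_nn (one_mem _) one_ne_zero (one_mem _) one_ne_zero)
  mul := by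
    rintro _ ⟨i, hi, rfl⟩ b hb n hn
    exact mul_DC h hi hb hn
  thick := by
    rintro _ ⟨i, hi, rfl⟩
    refine ⟨x i 1, UU_le (x_mem_UU (C.simp_pos i hi) (one_mem _)), fun hB => ?_⟩
    obtain ⟨φ, hφ, hφ0, h1⟩ := n_inv_act h i i
    rw [h1 1 (one_mem _), C.s_self] at hB
    have hk : φ 1 ∈ K (C.neg i) := by rw [h.K_neg]; exact hφ 1 (one_mem _)
    have h2 : x (C.neg i) (φ 1) ^ r ^ 1 = 1 := by
      rw [pow_one, x_pow h _ hk, CharP.cast_eq_zero, zero_mul, h.x_zero]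
    exact hφ0 1 (one_mem _) one_ne_zero
      (h.x_not_mem (simp_neg_lt hi) hk (mem_U_of_pow h hc r hB h2))
  gen := gen_BN h
  le := UU_le
  pgroup := UU_pgroup h r
  normal b hb u hu := h.B_conj_U hb hu
  split b hb := by
    obtain ⟨u, hu, t, ht, rfl⟩ := h.mem_BB hb
    exact ⟨u, hu, t, TT_le_BB ht, TT_le ht, rfl⟩
  coprime := by
    rw [h.inf_eq]
    intro hdvd
    obtain ⟨g, hg⟩ := exists_prime_orderOf_dvd_card' (G := TT C K x) r hdvd
    have h1 : g.1 = 1 := by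
      apply T_eq_one h hc r g.2 (k := 1)
      rw [pow_one]
      have h2 := pow_orderOf_eq_one g
      rw [hg] at h2
      have := congrArg Subtype.val h2
      simpa using this
    have h3 : g = 1 := Subtype.ext h1
    rw [h3, orderOf_one] at hg
    exact (Fact.out : r.Prime).one_lt.ne hg
  strong := by
    rintro _ ⟨i, hi, rfl⟩ y hy hy' u hu
    exact Ui_le i (Ui_conj_n h hi (Ui_normal h hi hu (mem_Ui h hi hy hy')))
  opp := by
    obtain ⟨l, hl, hl'⟩ := C.long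
    refine ⟨nl C x l, nl_mem hl, fun y hy hy' => ?_⟩
    have h1 : nl C x l * y * (nl C x l)⁻¹ ∈ UM C K x :=
      h.nl_conj_gr (p := fun j => 0 < C.ht j) (q := fun j => C.ht j < 0) hl' hy
    have h2 : nl C x l * y * (nl C x l)⁻¹ ∈ UU C K x ⊓ UM C K x := ⟨hy', h1⟩
    rw [show UU C K x ⊓ UM C K x = ⊥ from h.opp, mem_bot] at h2
    rw [mul_inv_eq_one, mul_eq_left] at h2
    exact h2
  nonempty := by
    obtain ⟨i, hi⟩ := C.ex
    exact ⟨_, i, hi, rfl⟩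
  irr := by
    intro J hJ hne hne' _
    by_contra hcon
    push Not at hcon
    obtain ⟨b, hb, hbJ⟩ := hne'
    obtain ⟨j, hj, rfl⟩ := hb
    obtain ⟨a, ha⟩ := hne
    obtain ⟨i, hi, rfl⟩ := hJ ha
    apply hbJ
    refine C.conn (fun k => nn C.neg x k 1 ∈ J) ⟨i, hi, ha⟩ ?_ j hj
    intro k l hk hl hkJ hp
    by_contra hlJ
    have hkl : k ≠ l := by
      rintro rfl
      exact hlJ hkJ
    exact irr_of h hk hl hkl hp (hcon _ hkJ _ ⟨⟨l, hl, rfl⟩, hlJ⟩)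

end

end Vale.Agent.P240.R2.H945.W
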